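import Vale.Agent.Lib.P037E.Packing

open Finset

namespace Vale.Agent.Lib.P037E

variable {n : ℕ}

/-- Greedy selection along a rank function. -/
theorem greedy {α : Type*} [DecidableEq α] (f : α → ℕ) (conf : α → Finset α) (D : ℕ) :
    ∀ (m : ℕ) (X : Finset α), X.card = m → (∀ c ∈ X, (conf c).card ≤ D) →
      ∃ S ⊆ X, X.card ≤ S.card * (D + 1) ∧ ∀ c ∈ S, ∀ c' ∈ S, f c' < f c → c' ∉ conf c := by
  intro m
  induction m using Nat.strong_induction_on with
  | _ m ih =>
    intro X hX hD
    rcases X.eq_empty_or_nonempty with rfl | hne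
    · exact ⟨∅, subset_rfl, by simp, by simp⟩
    obtain ⟨c, hc, hmax⟩ := exists_max_image X f hne
    set X' := X \ insert c (conf c) with hX'
    have hsub : X' ⊆ X := sdiff_subset
    have hlt : X'.card < m := by
      rw [← hX]
      apply card_lt_card
      refine ⟨hsub, fun h => ?_⟩
      have := h hc
      simp [hX'] at this
    obtain ⟨S', hS', hcard, hpair⟩ := ih X'.card hlt X' rfl (fun c' hc' => hD c' (hsub hc'))
    have hcS' : c ∉ S' := by
      intro h
      have := hS' h
      simp [hX'] at this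
    refine ⟨insert c S', ?_, ?_, ?_⟩
    · intro x hx
      rcases mem_insert.mp hx with rfl | hx
      · exact hc
      · exact hsub (hS' hx)
    · rw [card_insert_of_notMem hcS']
      have h1 : X.card ≤ X'.card + (insert c (conf c)).card := by
        have : X ⊆ X' ∪ insert c (conf c) := by
          intro x hx
          by_cases hin : x ∈ insert c (conf c)
          · exact mem_union_right _ hin
          · exact mem_union_left _ (mem_sdiff.mpr ⟨hx, hin⟩)
        exact (card_le_card this).trans (card_union_le _ _)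
      have h2 : (insert c (conf c)).card ≤ D + 1 :=
        (card_insert_le _ _).trans (by have := hD c hc; omega)
      calc X.card ≤ X'.card + (insert c (conf c)).card := h1
        _ ≤ S'.card * (D + 1) + (D + 1) := add_le_add hcard h2
        _ = (S'.card + 1) * (D + 1) := by ring
    · intro x hx y hy hxy
      rcases mem_insert.mp hx with rfl | hx'
      · rcases mem_insert.mp hy with rfl | hy'
        · exact absurd hxy (lt_irrefl _)
        · intro hcon
          have := hS' hy'
          simp only [hX', mem_sdiff, mem_insert, not_or] at this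
          exact this.2.2 hcon
      · rcases mem_insert.mp hy with rfl | hy'
        · exfalso
          have := hmax x (hsub (hS' hx'))
          omega
        · exact hpair x hx' y hy' hxy

/-- Sets of columns pairwise conflict-free are small, so `X` is small. -/
theorem bad_bound (A : Fin n → Fin n → Bool) (X : Finset (Fin n)) (conf : Fin n → Finset (Fin n))
    (f : Fin n → ℕ) (hf : Function.Injective f) {b m z u s : ℕ} (hn : 0 < n)
    (hconf : ∀ c ∈ X, (conf c).card * 2 ^ b ≤ 2 * n)
    (hfar : ∀ c ∈ X, ∀ c' ∈ X, f c' < f c → c' ∉ conf c →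
      n + 2 ^ z * (2 ^ m * 2 ^ m * (2 * s)) ≤ 2 ^ z * dist A c c')
    (hheavy : ∀ c ∈ X, ∀ c' ∈ X, f c' < f c → c' ∉ conf c →
      (c < c' → copyJ A c c' < (s + 1) * (s + 1)) ∧ (c' < c → copyJ A c' c < (s + 1) * (s + 1)))
    (hu : 2 * (2 ^ m * 2 ^ m) < 2 ^ u) (hsmall : 6 * (2 ^ z * u + 1) ^ 5 < 2 ^ m)
    (hnb : 2 ^ b ≤ n) :
    X.card * 2 ^ b ≤ 3 * 2 ^ m * n := by
  classical
  set D := (2 * n) / 2 ^ b with hD
  have hD2 : D * 2 ^ b ≤ 2 * n := Nat.div_mul_le_self _ _
  have hconfD : ∀ c ∈ X, (conf c).card ≤ D := by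
    intro c hc
    exact (Nat.le_div_iff_mul_le (by positivity)).mpr (hconf c hc)
  obtain ⟨S, hSX, hcard, hpair⟩ := greedy f conf D X.card X rfl hconfD
  have hS : S.card < 2 ^ m := by
    by_contra hcon
    push Not at hcon
    obtain ⟨S', hS', hcard'⟩ := Finset.exists_subset_card_eq hcon
    have hle := packing A S' (s := s) (z := z) (u := u) hn ?_ ?_ ?_
    · rw [hcard'] at hle
      omega
    · intro c1 hc1 c2 hc2 hlt
      have hne : f c1 ≠ f c2 := fun h => (ne_of_lt hlt) (hf h)
      rcases lt_or_gt_of_ne hne with h | h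
      · -- `f c1 < f c2`: use `c = c2`, `c' = c1`
        exact (hheavy c2 (hSX (hS' hc2)) c1 (hSX (hS' hc1)) h
          (hpair c2 (hS' hc2) c1 (hS' hc1) h)).2 hlt
      · exact (hheavy c1 (hSX (hS' hc1)) c2 (hSX (hS' hc2)) h
          (hpair c1 (hS' hc1) c2 (hS' hc2) h)).1 hlt
    · intro c hc c' hc' hne
      rw [hcard']
      have hne' : f c ≠ f c' := fun h => hne (hf h)
      rcases lt_or_gt_of_ne hne' with h | h
      · have := hfar c' (hSX (hS' hc')) c (hSX (hS' hc)) h (hpair c' (hS' hc') c (hS' hc) h)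
        rw [dist_comm]
        exact this
      · exact hfar c (hSX (hS' hc)) c' (hSX (hS' hc')) h (hpair c (hS' hc) c' (hS' hc') h)
    · rw [hcard']
      exact hu
  calc X.card * 2 ^ b ≤ (S.card * (D + 1)) * 2 ^ b := Nat.mul_le_mul_right _ hcard
    _ ≤ (2 ^ m * (D + 1)) * 2 ^ b := by
        apply Nat.mul_le_mul_right
        exact Nat.mul_le_mul_right _ hS.le
    _ = 2 ^ m * (D * 2 ^ b + 2 ^ b) := by ring
    _ ≤ 2 ^ m * (2 * n + n) := Nat.mul_le_mul_left _ (add_le_add hD2 hnb)
    _ = 3 * 2 ^ m * n := by ring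

/-- Number of copies on ordered column pairs. -/
def NJ (A : Fin n → Fin n → Bool) : ℕ := ∑ q : Fin n × Fin n, copyJ A q.1 q.2

/-- Heavy column pairs at scale `a`. -/
def heavySet (A : Fin n → Fin n → Bool) (a : ℕ) : Finset (Fin n × Fin n) :=
  univ.filter (fun q => q.1 < q.2 ∧ n * n < 4 ^ a * copyJ A q.1 q.2)

theorem heavy_card (A : Fin n → Fin n → Bool) (a : ℕ) :
    (heavySet A a).card * (n * n) ≤ 4 ^ a * NJ A := by
  calc (heavySet A a).card * (n * n) = ∑ _q ∈ heavySet A a, (n * n) := by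
        rw [sum_const, smul_eq_mul]
    _ ≤ ∑ q ∈ heavySet A a, 4 ^ a * copyJ A q.1 q.2 := by
        apply sum_le_sum
        intro q hq
        exact (mem_filter.mp hq).2.2.le
    _ = 4 ^ a * ∑ q ∈ heavySet A a, copyJ A q.1 q.2 := by rw [mul_sum]
    _ ≤ 4 ^ a * NJ A := by
        apply Nat.mul_le_mul_left
        exact sum_le_sum_of_subset (subset_univ _)

theorem nonheavy_lt {a x : ℕ} (h : 4 ^ a * x ≤ n * n) :
    x < (n / 2 ^ a + 1) * (n / 2 ^ a + 1) := by
  by_contra hcon
  push Not at hcon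
  have h1 : n < (n / 2 ^ a + 1) * 2 ^ a := by
    have := Nat.lt_mul_div_succ n (pow_pos (by norm_num : 0 < 2) a)
    rw [mul_comm] at this
    exact this
  have h2 : n * n < ((n / 2 ^ a + 1) * 2 ^ a) * ((n / 2 ^ a + 1) * 2 ^ a) :=
    Nat.mul_lt_mul'' h1 h1
  have h3 : ((n / 2 ^ a + 1) * 2 ^ a) * ((n / 2 ^ a + 1) * 2 ^ a) =
      4 ^ a * ((n / 2 ^ a + 1) * (n / 2 ^ a + 1)) := by
    have : (4 : ℕ) ^ a = 2 ^ a * 2 ^ a := by
      rw [← mul_pow]; norm_num
    rw [this]
    ring
  have h4 : 4 ^ a * ((n / 2 ^ a + 1) * (n / 2 ^ a + 1)) ≤ 4 ^ a * x :=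
    Nat.mul_le_mul_left _ hcon
  omega

/-- Columns close to `c` on the left. -/
def Lc (A : Fin n → Fin n → Bool) (e : ℕ) (c : Fin n) : Finset (Fin n) :=
  univ.filter (fun c' => c' < c ∧ dist A c c' * 2 ^ e ≤ n)

/-- Columns close to `c` on the right. -/
def Rc (A : Fin n → Fin n → Bool) (e : ℕ) (c : Fin n) : Finset (Fin n) :=
  univ.filter (fun c' => c < c' ∧ dist A c c' * 2 ^ e ≤ n)

/-- Generic count of bad columns on a given side. -/
theorem side_bound (A : Fin n → Fin n → Bool) (f : Fin n → ℕ) (hf : Function.Injective f)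
    (Cl : Fin n → Finset (Fin n)) (key : Fin n × Fin n → Fin n) (dual : Fin n × Fin n → Fin n)
    {a b m z u s : ℕ} (hn : 0 < n)
    (hfar : ∀ c c', f c' < f c → c' ∉ Cl c →
      n + 2 ^ z * (2 ^ m * 2 ^ m * (2 * s)) ≤ 2 ^ z * dist A c c')
    (hheavy : ∀ c c', f c' < f c →
      c' ∉ ((heavySet A a).filter (fun q => key q = c)).image dual →
      (c < c' → copyJ A c c' < (s + 1) * (s + 1)) ∧ (c' < c → copyJ A c' c < (s + 1) * (s + 1)))
    (hu : 2 * (2 ^ m * 2 ^ m) < 2 ^ u) (hsmall : 6 * (2 ^ z * u + 1) ^ 5 < 2 ^ m)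
    (hnb : 2 ^ b ≤ n) :
    ∃ XH : Finset (Fin n), XH.card * n ≤ 2 ^ b * (heavySet A a).card ∧
      (univ.filter (fun c => (Cl c).card * 2 ^ b < n)).card * 2 ^ b ≤
        3 * 2 ^ m * n + XH.card * 2 ^ b := by
  classical
  set H := heavySet A a with hH
  let hd : Fin n → Finset (Fin n × Fin n) := fun c => H.filter (fun q => key q = c)
  let XH := univ.filter (fun c => n < (hd c).card * 2 ^ b)
  refine ⟨XH, ?_, ?_⟩
  · have hsum : ∑ c, (hd c).card = H.card :=
      (card_eq_sum_card_fiberwise (fun q _ => mem_coe.mpr (mem_univ (key q)))).symm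
    calc XH.card * n = ∑ _c ∈ XH, n := by rw [sum_const, smul_eq_mul]
      _ ≤ ∑ c ∈ XH, (hd c).card * 2 ^ b := by
          apply sum_le_sum
          intro c hc
          exact (mem_filter.mp hc).2.le
      _ ≤ ∑ c, (hd c).card * 2 ^ b := sum_le_sum_of_subset (subset_univ _)
      _ = H.card * 2 ^ b := by rw [← sum_mul, hsum]
      _ = 2 ^ b * H.card := mul_comm _ _
  · set X := univ.filter (fun c => (Cl c).card * 2 ^ b < n) with hX
    set X' := X \ XH with hX'
    let conf : Fin n → Finset (Fin n) := fun c => Cl c ∪ (hd c).image dual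
    have hconf : ∀ c ∈ X', (conf c).card * 2 ^ b ≤ 2 * n := by
      intro c hc
      obtain ⟨h1, h2⟩ := mem_sdiff.mp hc
      have h3 : (Cl c).card * 2 ^ b < n := (mem_filter.mp h1).2
      have h4 : (hd c).card * 2 ^ b ≤ n := by
        by_contra hcon
        push Not at hcon
        exact h2 (mem_filter.mpr ⟨mem_univ _, hcon⟩)
      have h5 : (conf c).card ≤ (Cl c).card + (hd c).card :=
        (card_union_le _ _).trans (add_le_add le_rfl card_image_le)
      calc (conf c).card * 2 ^ b ≤ ((Cl c).card + (hd c).card) * 2 ^ b :=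
            Nat.mul_le_mul_right _ h5
        _ = (Cl c).card * 2 ^ b + (hd c).card * 2 ^ b := by ring
        _ ≤ 2 * n := by omega
    have h1 := bad_bound A X' conf f hf (s := s) (z := z) (u := u) hn hconf
      (fun c _ c' _ hlt hc => hfar c c' hlt (fun h => hc (mem_union_left _ h)))
      (fun c _ c' _ hlt hc => hheavy c c' hlt (fun h => hc (mem_union_right _ h)))
      hu hsmall hnb
    have h2 : X.card ≤ X'.card + XH.card := by
      have : X ⊆ X' ∪ XH := by
        intro c hc
        by_cases hin : c ∈ XH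
        · exact mem_union_right _ hin
        · exact mem_union_left _ (mem_sdiff.mpr ⟨hc, hin⟩)
      exact (card_le_card this).trans (card_union_le _ _)
    calc X.card * 2 ^ b ≤ (X'.card + XH.card) * 2 ^ b := Nat.mul_le_mul_right _ h2
      _ = X'.card * 2 ^ b + XH.card * 2 ^ b := by ring
      _ ≤ 3 * 2 ^ m * n + XH.card * 2 ^ b := add_le_add h1 le_rfl

end Vale.Agent.Lib.P037E
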