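import Vale.Agent.Lib.P037E.Forest
import Vale.Agent.Lib.P037.Basic

open Finset

namespace Vale.Agent.Lib.P037E

variable {n : ℕ}

instance (A : Fin n → Fin n → Bool) (r1 r2 c1 c2 : Fin n) : Decidable (JCopy A r1 r2 c1 c2) := by
  unfold JCopy; infer_instance

/-- Number of row pairs giving a copy on the two given columns. -/
def copyJ (A : Fin n → Fin n → Bool) (c1 c2 : Fin n) : ℕ :=
  (univ.filter (fun p : Fin n × Fin n => JCopy A p.1 p.2 c1 c2)).card

theorem exists_del (A : Fin n → Fin n → Bool) (c1 c2 : Fin n) (hc : c1 < c2) (s : ℕ)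
    (h : copyJ A c1 c2 < (s + 1) * (s + 1)) :
    ∃ Dq : Finset (Fin n), Dq.card ≤ 2 * s ∧
      ∀ r1 r2, JCopy A r1 r2 c1 c2 → r1 ∈ Dq ∨ r2 ∈ Dq := by
  classical
  set X := univ.filter (fun r => A r c1 = true ∧ A r c2 = false) with hX
  set Y := univ.filter (fun r => A r c1 = false ∧ A r c2 = false) with hY
  have hd : Disjoint X Y := by
    rw [Finset.disjoint_left]
    intro r h1 h2
    have h3 := (mem_filter.mp h1).2.1
    have h4 := (mem_filter.mp h2).2.1
    rw [h3] at h4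
    exact absurd h4 (by simp)
  have hcount : ((X ×ˢ Y).filter (fun p => p.1 < p.2)).card < (s + 1) * (s + 1) := by
    refine lt_of_le_of_lt (card_le_card ?_) h
    intro p hp
    simp only [mem_filter, mem_product, hX, hY, mem_univ, true_and] at hp ⊢
    exact ⟨hp.2, hc, hp.1.1.1, hp.1.1.2, hp.1.2.1, hp.1.2.2⟩
  obtain ⟨κ, h1, h2⟩ := Vale.Agent.Lib.P037.threshold_exists X Y hd s hcount
  refine ⟨(X.filter (fun x => x.val < κ)) ∪ (Y.filter (fun y => κ ≤ y.val)), ?_, ?_⟩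
  · calc _ ≤ _ + _ := card_union_le _ _
      _ ≤ s + s := add_le_add h1 h2
      _ = 2 * s := by ring
  · rintro r1 r2 ⟨hr, _, e1, e2, e3, e4⟩
    by_cases hk : r1.val < κ
    · left
      apply mem_union_left
      simp only [mem_filter, hX, mem_univ, true_and]
      exact ⟨⟨e1, e2⟩, hk⟩
    · right
      apply mem_union_right
      simp only [mem_filter, hY, mem_univ, true_and]
      refine ⟨⟨e3, e4⟩, ?_⟩
      have : r1.val < r2.val := hr
      omega

/-- Delete few rows to make the matrix exactly free on a set of columns. -/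
theorem delete_rows (A : Fin n → Fin n → Bool) (C : Finset (Fin n)) (s : ℕ)
    (h : ∀ c1 ∈ C, ∀ c2 ∈ C, c1 < c2 → copyJ A c1 c2 < (s + 1) * (s + 1)) :
    ∃ Del : Finset (Fin n), Del.card ≤ C.card * C.card * (2 * s) ∧ FreeOn A (univ \ Del) C := by
  classical
  have hex : ∀ q : Fin n × Fin n, ∃ Dq : Finset (Fin n), q ∈ C ×ˢ C → q.1 < q.2 →
      Dq.card ≤ 2 * s ∧ ∀ r1 r2, JCopy A r1 r2 q.1 q.2 → r1 ∈ Dq ∨ r2 ∈ Dq := by
    intro q
    by_cases hq : q ∈ C ×ˢ C ∧ q.1 < q.2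
    · obtain ⟨hq1, hq2⟩ := hq
      obtain ⟨h1, h2⟩ := mem_product.mp hq1
      obtain ⟨Dq, h3, h4⟩ := exists_del A q.1 q.2 hq2 s (h _ h1 _ h2 hq2)
      exact ⟨Dq, fun _ _ => ⟨h3, h4⟩⟩
    · refine ⟨∅, fun h1 h2 => absurd ⟨h1, h2⟩ hq⟩
  choose Dq hDq using hex
  set P := (C ×ˢ C).filter (fun q => q.1 < q.2) with hP
  refine ⟨P.biUnion Dq, ?_, ?_⟩
  · calc _ ≤ P.card * (2 * s) := by
          apply card_biUnion_le_card_mul
          intro q hq
          obtain ⟨h1, h2⟩ := mem_filter.mp hq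
          exact (hDq q h1 h2).1
      _ ≤ _ := by
          apply Nat.mul_le_mul_right
          calc _ ≤ (C ×ˢ C).card := card_le_card (filter_subset _ _)
            _ = _ := card_product _ _
  · intro r1 hr1 r2 hr2 c1 hc1 c2 hc2 hcopy
    have hq : (c1, c2) ∈ P := by
      simp only [hP, mem_filter, mem_product]
      exact ⟨⟨hc1, hc2⟩, hcopy.2.1⟩
    have hq' := mem_filter.mp hq
    rcases (hDq (c1, c2) hq'.1 hq'.2).2 r1 r2 hcopy with h3 | h3
    · exact (mem_sdiff.mp hr1).2 (mem_biUnion.mpr ⟨_, hq, h3⟩)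
    · exact (mem_sdiff.mp hr2).2 (mem_biUnion.mpr ⟨_, hq, h3⟩)

end Vale.Agent.Lib.P037E
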