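import Vale.Agent.Lib.P037E.Final

open Finset

namespace Vale.Agent.Lib.P037E

variable {n : ℕ}

/-- A pattern with two equal rows `[[a,b],[a,b]]`. -/
def eqRowPat (a b : Bool) : Fin 2 → Fin 2 → Bool := ![![a, b], ![a, b]]

/-- Ordered column pairs on which a row reads `(a,b)`. -/
def QW (w : Fin n → Bool) (a b : Bool) : Finset (Fin n × Fin n) :=
  univ.filter (fun q => q.1 < q.2 ∧ w q.1 = a ∧ w q.2 = b)

/-- Number of pairs of rows with a common column pair. -/
def NR (A : Fin n → Fin n → Bool) (a b : Bool) : ℕ :=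
  ((univ : Finset ((Fin n × Fin n) × (Fin n × Fin n))).filter
    (fun x => x.1.1 < x.1.2 ∧ x.2 ∈ QW (A x.1.1) a b ∧ x.2 ∈ QW (A x.1.2) a b)).card

theorem NR_le_countCopies (A : Fin n → Fin n → Bool) (a b : Bool) :
    NR A a b ≤ countCopies (eqRowPat a b) A := by
  classical
  unfold NR countCopies copies
  apply Finset.card_le_card_of_injOn
    (fun q => ((![q.1.1, q.1.2] : Fin 2 → Fin n), (![q.2.1, q.2.2] : Fin 2 → Fin n)))
  · intro q hq
    have hq' := (Finset.mem_filter.mp (Finset.mem_coe.mp hq)).2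
    obtain ⟨h1, h2, h3⟩ := hq'
    obtain ⟨_, h4, e1, e2⟩ := mem_filter.mp h2
    obtain ⟨_, _, e3, e4⟩ := mem_filter.mp h3
    apply Finset.mem_coe.mpr
    simp only [mem_filter, mem_univ, true_and]
    refine ⟨?_, ?_, ?_⟩
    · intro i j hij
      fin_cases i <;> fin_cases j <;> simp_all
    · intro i j hij
      fin_cases i <;> fin_cases j <;> simp_all
    · intro i j
      fin_cases i <;> fin_cases j <;> simp_all [eqRowPat]
  · intro q _ q' _ h
    have h1 := congrArg (fun x => x.1 0) h
    have h2 := congrArg (fun x => x.1 1) h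
    have h3 := congrArg (fun x => x.2 0) h
    have h4 := congrArg (fun x => x.2 1) h
    simp only [Matrix.cons_val_zero, Matrix.cons_val_one] at h1 h2 h3 h4
    exact Prod.ext (Prod.ext h1 h2) (Prod.ext h3 h4)

theorem countCopies_eqRow_zero (B : Fin n → Fin n → Bool) (a b : Bool)
    (h : ∀ r c1 c2, c1 < c2 → ¬ (B r c1 = a ∧ B r c2 = b)) :
    countCopies (eqRowPat a b) B = 0 := by
  classical
  unfold countCopies copies
  apply Finset.card_eq_zero.mpr
  apply Finset.filter_eq_empty_iff.mpr
  rintro p _ ⟨_, h2, h3⟩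
  apply h (p.1 0) (p.2 0) (p.2 1) (h2 (by simp))
  constructor
  · rw [h3]; rfl
  · rw [h3]; rfl

/-- A finite set with few increasing pairs is small. -/
theorem card_sq_le (M : Finset (Fin n)) :
    M.card * M.card ≤ 2 * ((M ×ˢ M).filter (fun p => p.1 < p.2)).card + M.card := by
  classical
  set L := (M ×ˢ M).filter (fun p => p.1 < p.2) with hL
  have hsub : M ×ˢ M ⊆ L ∪ L.image Prod.swap ∪ M.image (fun x => (x, x)) := by
    rintro ⟨x, y⟩ hp
    obtain ⟨hx, hy⟩ := mem_product.mp hp
    simp only at hx hy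
    rcases lt_trichotomy x y with h | h | h
    · exact mem_union_left _ (mem_union_left _ (mem_filter.mpr ⟨hp, h⟩))
    · subst h
      exact mem_union_right _ (mem_image.mpr ⟨x, hx, rfl⟩)
    · refine mem_union_left _ (mem_union_right _ (mem_image.mpr ⟨(y, x), ?_, rfl⟩))
      exact mem_filter.mpr ⟨mem_product.mpr ⟨hy, hx⟩, h⟩
  have h1 := card_le_card hsub
  rw [card_product] at h1
  have h2 : (L ∪ L.image Prod.swap ∪ M.image (fun x => (x, x))).card ≤
      L.card + L.card + M.card :=
    (card_union_le _ _).trans (add_le_add ((card_union_le _ _).trans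
      (add_le_add le_rfl card_image_le)) card_image_le)
  omega

/-- Cauchy-Schwarz for rows and column pairs. -/
theorem rowpair_cs (A : Fin n → Fin n → Bool) (a b : Bool) :
    (∑ r, (QW (A r) a b).card) ^ 2 ≤ (n * n) * (2 * NR A a b + ∑ r, (QW (A r) a b).card) := by
  classical
  -- the multiplicity of a column pair
  let m : Fin n × Fin n → Finset (Fin n) := fun q => univ.filter (fun r => q ∈ QW (A r) a b)
  have hT : ∑ r, (QW (A r) a b).card = ∑ q, (m q).card := by
    have := sum_card_bipartiteAbove_eq_sum_card_bipartiteBelow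
      (s := (univ : Finset (Fin n))) (t := (univ : Finset (Fin n × Fin n)))
      (fun r q => q ∈ QW (A r) a b)
    simpa [Finset.bipartiteAbove, Finset.bipartiteBelow] using this
  have hNR : NR A a b = ∑ q, ((m q ×ˢ m q).filter (fun p => p.1 < p.2)).card := by
    unfold NR
    rw [Finset.card_filter, Fintype.sum_prod_type_right]
    apply sum_congr rfl
    intro q _
    rw [Finset.card_filter]
    rw [← Finset.card_filter, ← Finset.card_filter]
    congr 1
    ext p
    simp only [mem_filter, mem_univ, true_and, mem_product, m]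
    tauto
  have hcs : (∑ q, (m q).card) ^ 2 ≤ (univ : Finset (Fin n × Fin n)).card *
      ∑ q, (m q).card ^ 2 := sq_sum_le_card_mul_sum_sq
  have hcard : (univ : Finset (Fin n × Fin n)).card = n * n := by simp
  have hsum : ∑ q, (m q).card ^ 2 ≤ 2 * NR A a b + ∑ r, (QW (A r) a b).card := by
    rw [hNR, hT, mul_sum, ← sum_add_distrib]
    apply sum_le_sum
    intro q _
    rw [sq]
    exact card_sq_le (m q)
  rw [hT] at hsum ⊢
  rw [hcard] at hcs
  exact hcs.trans (Nat.mul_le_mul_left _ hsum)

/-- Abstract row repair gives the removal property for equal-row patterns. -/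
theorem good_eqRow (a b : Bool)
    (hrepair : ∀ (m : ℕ) (w : Fin m → Bool) (s : ℕ), ∃ w' : Fin m → Bool,
      (∀ c1 c2, c1 < c2 → ¬ (w' c1 = a ∧ w' c2 = b)) ∧
      ((QW w a b).card < (s + 1) * (s + 1) →
        (univ.filter (fun c => w c ≠ w' c)).card ≤ 2 * s + 2)) :
    Good 12 44 (eqRowPat a b) := by
  classical
  intro n hn t A hA
  by_cases hN : countCopies (eqRowPat a b) A = 0
  · refine ⟨A, hN, ?_⟩
    simp [diffCount]
    omega
  have hNpos : 1 ≤ countCopies (eqRowPat a b) A := Nat.one_le_iff_ne_zero.mpr hN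
  -- `n` is large
  have hnb : 2 ^ (3 * t + 11) ≤ n := by
    by_contra hcon
    push Not at hcon
    have h1 : n ^ 4 ≤ (2 ^ (3 * t + 11)) ^ 4 := Nat.pow_le_pow_left hcon.le 4
    have h2 : (2 ^ (3 * t + 11)) ^ 4 = 2 ^ (12 * t + 44) := by
      rw [← pow_mul]; congr 1; ring
    have h3 : 2 ^ (12 * t + 44) ≤ countCopies (eqRowPat a b) A * 2 ^ (12 * t + 44) :=
      Nat.le_mul_of_pos_left _ hNpos
    omega
  obtain ⟨s, hs⟩ : ∃ s, s = n / 2 ^ (t + 4) := ⟨_, rfl⟩
  choose W hW1 hW2 using fun r : Fin n => hrepair n (A r) s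
  refine ⟨fun r c => W r c, countCopies_eqRow_zero _ a b (fun r c1 c2 h => hW1 r c1 c2 h), ?_⟩
  set HR := univ.filter (fun r => (s + 1) * (s + 1) ≤ (QW (A r) a b).card) with hHR
  set T := ∑ r, (QW (A r) a b).card with hT
  set N := NR A a b with hNdef
  have hNle : N * 2 ^ (12 * t + 44) < n ^ 4 :=
    lt_of_le_of_lt (Nat.mul_le_mul_right _ (NR_le_countCopies A a b)) hA
  -- heavy rows are few
  have hs1 : n < (s + 1) * 2 ^ (t + 4) := by
    have := Nat.lt_mul_div_succ n (pow_pos (by norm_num : 0 < 2) (t + 4))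
    rw [mul_comm] at this
    rw [hs]
    exact this
  have hHRT : HR.card * ((s + 1) * (s + 1)) ≤ T := by
    calc HR.card * ((s + 1) * (s + 1)) = ∑ _r ∈ HR, ((s + 1) * (s + 1)) := by
          rw [sum_const, smul_eq_mul]
      _ ≤ ∑ r ∈ HR, (QW (A r) a b).card := by
          apply sum_le_sum
          intro r hr
          exact (mem_filter.mp hr).2
      _ ≤ T := sum_le_sum_of_subset (subset_univ _)
  have hHRsmall : HR.card * 2 ^ (t + 2) ≤ n := by
    by_contra hcon
    push Not at hcon
    have h1 : n * (n * n) < T * 2 ^ (3 * t + 10) := by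
      calc n * (n * n) < (HR.card * 2 ^ (t + 2)) *
            (((s + 1) * 2 ^ (t + 4)) * ((s + 1) * 2 ^ (t + 4))) := by
            apply Nat.mul_lt_mul_of_lt_of_le hcon (Nat.mul_le_mul hs1.le hs1.le)
            have : 0 < n := hn
            positivity
        _ = (HR.card * ((s + 1) * (s + 1))) * 2 ^ (3 * t + 10) := by
            rw [show 3 * t + 10 = (t + 2) + (t + 4) + (t + 4) by ring, pow_add, pow_add]
            ring
        _ ≤ T * 2 ^ (3 * t + 10) := Nat.mul_le_mul_right _ hHRT
    have h2 : 2 * (n * n) < T := by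
      have h3 : (2 * (n * n)) * 2 ^ (3 * t + 10) < T * 2 ^ (3 * t + 10) := by
        calc (2 * (n * n)) * 2 ^ (3 * t + 10) = 2 ^ (3 * t + 11) * (n * n) := by
              rw [show 3 * t + 11 = (3 * t + 10) + 1 by ring, pow_add]
              ring
          _ ≤ n * (n * n) := Nat.mul_le_mul_right _ hnb
          _ < _ := h1
      exact Nat.lt_of_mul_lt_mul_right h3
    have h4 : T * T ≤ 4 * (n * n) * N := by
      have h5 := rowpair_cs A a b
      rw [← hT, ← hNdef, sq] at h5
      have h6 : 2 * (n * n) * T ≤ T * T := Nat.mul_le_mul_right _ h2.le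
      have h7 : (n * n) * (2 * N + T) = 2 * (n * n) * N + (n * n) * T := by ring
      have h8 : 2 * (n * n) * T = 2 * ((n * n) * T) := by ring
      have h9 : 4 * (n * n) * N = 2 * (2 * (n * n) * N) := by ring
      omega
    have h5 : (n * (n * n)) * (n * (n * n)) < (T * 2 ^ (3 * t + 10)) * (T * 2 ^ (3 * t + 10)) :=
      Nat.mul_lt_mul'' h1 h1
    have h6 : (n * n) * (n * n * (n * n)) <  (n * n) * (n * n * (n * n)) := by
      calc (n * n) * (n * n * (n * n)) = (n * (n * n)) * (n * (n * n)) := by ring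
        _ < (T * 2 ^ (3 * t + 10)) * (T * 2 ^ (3 * t + 10)) := h5
        _ = (T * T) * (2 ^ (3 * t + 10) * 2 ^ (3 * t + 10)) := by ring
        _ ≤ (4 * (n * n) * N) * (2 ^ (3 * t + 10) * 2 ^ (3 * t + 10)) :=
            Nat.mul_le_mul_right _ h4
        _ = (n * n) * (N * 2 ^ (6 * t + 22)) := by
            rw [show 6 * t + 22 = 2 + ((3 * t + 10) + (3 * t + 10)) by ring, pow_add, pow_add]
            ring
        _ ≤ (n * n) * (N * 2 ^ (12 * t + 44)) := by
            apply Nat.mul_le_mul_left
            apply Nat.mul_le_mul_left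
            exact Nat.pow_le_pow_right (by norm_num) (by omega)
        _ ≤ (n * n) * (n ^ 4) := Nat.mul_le_mul_left _ hNle.le
        _ = (n * n) * (n * n * (n * n)) := by ring
    exact lt_irrefl _ h6
  -- count the errors
  have hdiff : diffCount A (fun r c => W r c) =
      ∑ r, (univ.filter (fun c => A r c ≠ W r c)).card := by
    unfold diffCount
    rw [Finset.card_filter, Fintype.sum_prod_type]
    apply sum_congr rfl
    intro r _
    rw [Finset.card_filter]
  have hcost : ∀ r, (univ.filter (fun c => A r c ≠ W r c)).card ≤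
      (if r ∈ HR then n else 0) + (2 * s + 2) := by
    intro r
    by_cases hr : r ∈ HR
    · rw [if_pos hr]
      calc _ ≤ (univ : Finset (Fin n)).card := card_le_card (subset_univ _)
        _ = n := by simp
        _ ≤ _ := by omega
    · rw [if_neg hr]
      have : (QW (A r) a b).card < (s + 1) * (s + 1) := by
        by_contra hcon
        push Not at hcon
        exact hr (mem_filter.mpr ⟨mem_univ _, hcon⟩)
      have := hW2 r this
      omega
  have hdiff2 : diffCount A (fun r c => W r c) ≤ HR.card * n + n * (2 * s + 2) := by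
    rw [hdiff]
    calc _ ≤ ∑ r : Fin n, ((if r ∈ HR then n else 0) + (2 * s + 2)) := sum_le_sum (fun r _ => hcost r)
      _ = HR.card * n + n * (2 * s + 2) := by
          rw [sum_add_distrib, sum_ite_mem, sum_const, sum_const]
          simp
  -- final arithmetic
  have hP : (2 : ℕ) ^ (t + 2) = 4 * 2 ^ t := by
    rw [pow_add]; ring
  have hP2 : (2 : ℕ) ^ (t + 4) = 16 * 2 ^ t := by
    rw [pow_add]; ring
  have hPP : 0 < 2 ^ t := by positivity
  have hs2 : s * 2 ^ (t + 4) ≤ n := by
    rw [hs]
    exact Nat.div_mul_le_self _ _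
  have hnb2 : 2 ^ (t + 4) ≤ n := by
    refine le_trans (Nat.pow_le_pow_right (by norm_num) ?_) hnb
    omega
  rw [hP2] at hs2 hnb2
  rw [hP] at hHRsmall
  set x := diffCount A (fun r c => W r c) with hx
  have h1 : 8 * (x * 2 ^ t) ≤ 4 * (n * n) + n * ((2 * s + 2) * (8 * 2 ^ t)) := by
    calc 8 * (x * 2 ^ t) = x * (8 * 2 ^ t) := by ring
      _ ≤ (HR.card * n + n * (2 * s + 2)) * (8 * 2 ^ t) := Nat.mul_le_mul_right _ hdiff2
      _ = 2 * n * (HR.card * (4 * 2 ^ t)) + n * ((2 * s + 2) * (8 * 2 ^ t)) := by ring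
      _ ≤ 2 * n * n + n * ((2 * s + 2) * (8 * 2 ^ t)) :=
          add_le_add (Nat.mul_le_mul_left _ hHRsmall) le_rfl
      _ ≤ 4 * (n * n) + n * ((2 * s + 2) * (8 * 2 ^ t)) := by nlinarith
  have h2 : (2 * s + 2) * (8 * 2 ^ t) ≤ 2 * n := by
    have e : (2 * s + 2) * (8 * 2 ^ t) = s * (16 * 2 ^ t) + 16 * 2 ^ t := by ring
    omega
  have h3 : n * ((2 * s + 2) * (8 * 2 ^ t)) ≤ n * (2 * n) := Nat.mul_le_mul_left _ h2
  have h4 : 0 < n * n := by positivity
  have h5 : n * (2 * n) = 2 * (n * n) := by ring
  omega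

theorem repair_true_false (m : ℕ) (w : Fin m → Bool) (s : ℕ) : ∃ w' : Fin m → Bool,
    (∀ c1 c2, c1 < c2 → ¬ (w' c1 = true ∧ w' c2 = false)) ∧
    ((QW w true false).card < (s + 1) * (s + 1) →
      (univ.filter (fun c => w c ≠ w' c)).card ≤ 2 * s + 2) := by
  classical
  set X := univ.filter (fun c => w c = true) with hX
  set Y := univ.filter (fun c => w c = false) with hY
  have hd : Disjoint X Y := by
    rw [Finset.disjoint_left]
    intro r h1 h2
    have h3 := (mem_filter.mp h1).2
    have h4 := (mem_filter.mp h2).2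
    rw [h3] at h4
    exact absurd h4 (by simp)
  by_cases hcount : (QW w true false).card < (s + 1) * (s + 1)
  · have hc2 : ((X ×ˢ Y).filter (fun p => p.1 < p.2)).card < (s + 1) * (s + 1) := by
      refine lt_of_le_of_lt (card_le_card ?_) hcount
      intro p hp
      simp only [mem_filter, mem_product, hX, hY, mem_univ, true_and, QW] at hp ⊢
      exact ⟨hp.2, hp.1.1, hp.1.2⟩
    obtain ⟨κ, h1, h2⟩ := Vale.Agent.Lib.P037.threshold_exists X Y hd s hc2
    refine ⟨fun c => decide (κ ≤ c.val), ?_, ?_⟩
    · rintro c1 c2 h ⟨e1, e2⟩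
      simp only [decide_eq_true_eq, decide_eq_false_iff_not] at e1 e2
      have : c1.val < c2.val := h
      omega
    · intro _
      have hsub : univ.filter (fun c => w c ≠ decide (κ ≤ c.val)) ⊆
          (X.filter (fun x => x.val < κ)) ∪ (Y.filter (fun y => κ ≤ y.val)) := by
        intro c hc
        have hne := (mem_filter.mp hc).2
        by_cases hk : κ ≤ c.val
        · apply mem_union_right
          simp only [hk, decide_true] at hne
          simp only [mem_filter, hY, mem_univ, true_and]
          refine ⟨?_, hk⟩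
          cases hw : w c with
          | false => rfl
          | true => rw [hw] at hne; exact absurd rfl hne
        · apply mem_union_left
          simp only [hk, decide_false] at hne
          simp only [mem_filter, hX, mem_univ, true_and]
          refine ⟨?_, by omega⟩
          cases hw : w c with
          | true => rfl
          | false => rw [hw] at hne; exact absurd rfl hne
      calc _ ≤ _ := card_le_card hsub
        _ ≤ _ := card_union_le _ _
        _ ≤ s + s := add_le_add h1 h2
        _ ≤ _ := by omega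
  · refine ⟨fun _ => false, ?_, fun h => absurd h hcount⟩
    rintro c1 c2 _ ⟨e1, _⟩
    exact absurd e1 (by simp)

theorem repair_true_true (m : ℕ) (w : Fin m → Bool) (s : ℕ) : ∃ w' : Fin m → Bool,
    (∀ c1 c2, c1 < c2 → ¬ (w' c1 = true ∧ w' c2 = true)) ∧
    ((QW w true true).card < (s + 1) * (s + 1) →
      (univ.filter (fun c => w c ≠ w' c)).card ≤ 2 * s + 2) := by
  classical
  refine ⟨fun _ => false, ?_, ?_⟩
  · rintro c1 c2 _ ⟨e1, _⟩
    exact absurd e1 (by simp)
  · intro hcount
    set X := univ.filter (fun c => w c = true) with hX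
    have hsub : univ.filter (fun c => w c ≠ false) ⊆ X := by
      intro c hc
      have := (mem_filter.mp hc).2
      simpa [hX] using this
    have h1 := card_sq_le X
    have h2 : ((X ×ˢ X).filter (fun p => p.1 < p.2)).card < (s + 1) * (s + 1) := by
      refine lt_of_le_of_lt (card_le_card ?_) hcount
      intro p hp
      simp only [mem_filter, mem_product, hX, mem_univ, true_and, QW] at hp ⊢
      exact ⟨hp.2, hp.1.1, hp.1.2⟩
    have h3 : X.card ≤ 2 * s + 2 := by
      by_contra hcon
      push Not at hcon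
      have h4 : 2 * s + 3 ≤ X.card := hcon
      nlinarith
    exact (card_le_card hsub).trans h3

theorem good_mono {a b a' b' : ℕ} (ha : a ≤ a') (hb : b ≤ b') {H : Fin 2 → Fin 2 → Bool}
    (h : Good a b H) : Good a' b' H := by
  intro n hn t A hA
  apply h n hn t A
  refine lt_of_le_of_lt (Nat.mul_le_mul_left _ (Nat.pow_le_pow_right (by norm_num) ?_)) hA
  exact add_le_add (Nat.mul_le_mul_right _ ha) hb

theorem classify_rest (H : Fin 2 → Fin 2 → Bool)
    (h1 : (H 0 0 = H 1 0 ∧ H 0 1 = H 1 1) ∨ (H 0 0 = H 0 1 ∧ H 1 0 = H 1 1)) :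
    H = eqRowPat true false ∨ H = colFlip (eqRowPat true false) ∨
    H = eqRowPat true true ∨ H = compl (eqRowPat true true) ∨
    H = transp (eqRowPat true false) ∨ H = rowFlip (transp (eqRowPat true false)) := by
  revert H
  decide

theorem good_rest (H : Fin 2 → Fin 2 → Bool)
    (h1 : (H 0 0 = H 1 0 ∧ H 0 1 = H 1 1) ∨ (H 0 0 = H 0 1 ∧ H 1 0 = H 1 1)) :
    Good 12 44 H := by
  have h2 := good_eqRow true false repair_true_false
  have h3 := good_eqRow true true repair_true_true
  rcases classify_rest H h1 with rfl | rfl | rfl | rfl | rfl | rfl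
  · exact h2
  · exact h2.colFlip
  · exact h3
  · exact h3.compl
  · exact h2.transp
  · exact h2.transp.rowFlip

end Vale.Agent.Lib.P037E
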