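import Vale.Agent.Lib.P037E.Transfer

open Finset

namespace Vale.Agent.Lib.P037E

theorem countCopies_eq_zero_of_free {n : ℕ} (B : Fin n → Fin n → Bool)
    (hB : ∀ r1 r2 c1 c2, ¬ JCopy B r1 r2 c1 c2) : countCopies Jpat B = 0 := by
  classical
  unfold countCopies copies
  apply Finset.card_eq_zero.mpr
  apply Finset.filter_eq_empty_iff.mpr
  rintro p _ ⟨h1, h2, h3⟩
  apply hB (p.1 0) (p.1 1) (p.2 0) (p.2 1)
  refine ⟨h1 (by simp), h2 (by simp), ?_, ?_, ?_, ?_⟩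
  · rw [h3]; rfl
  · rw [h3]; rfl
  · rw [h3]; rfl
  · rw [h3]; rfl

theorem good_J : Good 75 448 Jpat := by
  intro n hn t A hA
  have h1 : NJ A * 2 ^ (75 * t + 448) < n ^ 4 :=
    lt_of_le_of_lt (Nat.mul_le_mul_right _ (NJ_le_countCopies A)) hA
  obtain ⟨B, h2, h3⟩ := main_nat A t hn h1
  exact ⟨B, countCopies_eq_zero_of_free B h2, h3⟩

theorem far_elim {k n : ℕ} {H : Fin k → Fin k → Bool} {A : Fin n → Fin n → Bool} {ε : ℝ}
    (hn : 0 < n) (hfar : ε ≤ distH H A) (B : Fin n → Fin n → Bool)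
    (hB : countCopies H B = 0) : ε * ((n : ℝ) * n) ≤ (diffCount A B : ℝ) := by
  have hnR : (0 : ℝ) < (n : ℝ) := by exact_mod_cast hn
  have h1 : distH H A ≤ (diffCount A B : ℝ) / (n : ℝ) ^ 2 := by
    apply csInf_le
    · refine ⟨0, ?_⟩
      rintro d ⟨B', _, rfl⟩
      positivity
    · exact ⟨B, hB, rfl⟩
  have h2 := hfar.trans h1
  rw [le_div_iff₀ (by positivity)] at h2
  nlinarith

/-- From the natural-number form to the real form. -/
theorem real_form {a b : ℕ} {H : Fin 2 → Fin 2 → Bool} (h : Good a b H) {n : ℕ} (hn : 0 < n)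
    {ε : ℝ} (h0 : 0 < ε) (h1 : ε < 1) (A : Fin n → Fin n → Bool)
    (hfar : ε ≤ distH H A) :
    (1 / 2 : ℝ) ^ (a + b) * ε ^ a * (n : ℝ) ^ 4 ≤ (countCopies H A : ℝ) := by
  classical
  have hnR : (0 : ℝ) < (n : ℝ) := by exact_mod_cast hn
  have hex : ∃ k : ℕ, (1 / 2 : ℝ) ^ k < ε := exists_pow_lt_of_lt_one h0 (by norm_num)
  obtain ⟨t, ht⟩ : ∃ t : ℕ, (1 / 2 : ℝ) ^ t < ε ∧ ε / 2 ≤ (1 / 2 : ℝ) ^ t := by
    refine ⟨Nat.find hex, Nat.find_spec hex, ?_⟩
    have hne : Nat.find hex ≠ 0 := by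
      intro h
      have := Nat.find_spec hex
      rw [h] at this
      simp at this
      linarith
    obtain ⟨j, hj⟩ := Nat.exists_eq_succ_of_ne_zero hne
    have hmin := Nat.find_min hex (m := j) (by omega)
    push Not at hmin
    rw [hj, pow_succ]
    linarith
  obtain ⟨ht1, ht2⟩ := ht
  have hmain : n ^ 4 ≤ countCopies H A * 2 ^ (a * t + b) := by
    by_contra hcon
    push Not at hcon
    obtain ⟨B, hB1, hB2⟩ := h n hn t A hcon
    have h3 := far_elim hn hfar B hB1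
    have h4 : ((diffCount A B : ℝ)) * 2 ^ t < (n : ℝ) * n := by exact_mod_cast hB2
    have h5 : (2 : ℝ) ^ t * (1 / 2 : ℝ) ^ t = 1 := by
      rw [← mul_pow]; norm_num
    have h6 : (0 : ℝ) < 2 ^ t := by positivity
    have h7 : (1 / 2 : ℝ) ^ t * ((n : ℝ) * n) < ε * ((n : ℝ) * n) :=
      mul_lt_mul_of_pos_right ht1 (by positivity)
    have h8 : (n : ℝ) * n * (1 / 2 : ℝ) ^ t ≤ (diffCount A B : ℝ) := by linarith
    have h9 : (n : ℝ) * n * ((1 / 2 : ℝ) ^ t * 2 ^ t) ≤ (diffCount A B : ℝ) * 2 ^ t := by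
      calc _ = ((n : ℝ) * n * (1 / 2 : ℝ) ^ t) * 2 ^ t := by ring
        _ ≤ _ := mul_le_mul_of_nonneg_right h8 h6.le
    rw [mul_comm ((1 / 2 : ℝ) ^ t), h5, mul_one] at h9
    linarith
  have hmainR : (n : ℝ) ^ 4 ≤ (countCopies H A : ℝ) * 2 ^ (a * t + b) := by exact_mod_cast hmain
  have hbound : (1 / 2 : ℝ) ^ (a + b) * ε ^ a ≤ (1 / 2 : ℝ) ^ (a * t + b) := by
    have e1 : (1 / 2 : ℝ) ^ (a * t + b) = ((1 / 2 : ℝ) ^ t) ^ a * (1 / 2 : ℝ) ^ b := by
      rw [pow_add, mul_comm a t, pow_mul]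
    have e2 : (1 / 2 : ℝ) ^ (a + b) * ε ^ a = (ε / 2) ^ a * (1 / 2 : ℝ) ^ b := by
      rw [pow_add, show ε / 2 = ε * (1 / 2) by ring, mul_pow]
      ring
    rw [e1, e2]
    apply mul_le_mul_of_nonneg_right _ (by positivity)
    exact pow_le_pow_left₀ (by positivity) ht2 _
  have hpos : (0 : ℝ) < (1 / 2 : ℝ) ^ (a * t + b) := by positivity
  have hone : (1 / 2 : ℝ) ^ (a * t + b) * 2 ^ (a * t + b) = 1 := by
    rw [← mul_pow]; norm_num
  calc (1 / 2 : ℝ) ^ (a + b) * ε ^ a * (n : ℝ) ^ 4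
      ≤ (1 / 2 : ℝ) ^ (a * t + b) * (n : ℝ) ^ 4 :=
        mul_le_mul_of_nonneg_right hbound (by positivity)
    _ ≤ (1 / 2 : ℝ) ^ (a * t + b) * ((countCopies H A : ℝ) * 2 ^ (a * t + b)) :=
        mul_le_mul_of_nonneg_left hmainR hpos.le
    _ = (countCopies H A : ℝ) * ((1 / 2 : ℝ) ^ (a * t + b) * 2 ^ (a * t + b)) := by ring
    _ = (countCopies H A : ℝ) := by rw [hone, mul_one]

theorem classify_odd (H : Fin 2 → Fin 2 → Bool)
    (hH : (univ.filter (fun p : Fin 2 × Fin 2 => H p.1 p.2 = true)).card = 1 ∨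
      (univ.filter (fun p : Fin 2 × Fin 2 => H p.1 p.2 = true)).card = 3) :
    H = Jpat ∨ H = rowFlip Jpat ∨ H = colFlip Jpat ∨ H = rowFlip (colFlip Jpat) ∨
      H = compl Jpat ∨ H = compl (rowFlip Jpat) ∨ H = compl (colFlip Jpat) ∨
      H = compl (rowFlip (colFlip Jpat)) := by
  revert H
  decide

theorem good_odd (H : Fin 2 → Fin 2 → Bool)
    (hH : (univ.filter (fun p : Fin 2 × Fin 2 => H p.1 p.2 = true)).card = 1 ∨
      (univ.filter (fun p : Fin 2 × Fin 2 => H p.1 p.2 = true)).card = 3) :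
    Good 75 448 H := by
  rcases classify_odd H hH with rfl | rfl | rfl | rfl | rfl | rfl | rfl | rfl
  · exact good_J
  · exact good_J.rowFlip
  · exact good_J.colFlip
  · exact good_J.colFlip.rowFlip
  · exact good_J.compl
  · exact good_J.rowFlip.compl
  · exact good_J.colFlip.compl
  · exact good_J.colFlip.rowFlip.compl

end Vale.Agent.Lib.P037E
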