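import Mathlib

open Finset

namespace Vale.Agent.Lib.P037E

variable {n : ℕ}

/-- A copy of the pattern `[[1,0],[0,0]]` at rows `r1 < r2`, columns `c1 < c2`. -/
def JCopy (A : Fin n → Fin n → Bool) (r1 r2 c1 c2 : Fin n) : Prop :=
  r1 < r2 ∧ c1 < c2 ∧ A r1 c1 = true ∧ A r1 c2 = false ∧ A r2 c1 = false ∧ A r2 c2 = false

/-- The matrix has no copy with rows in `R` and columns in `C`. -/
def FreeOn (A : Fin n → Fin n → Bool) (R C : Finset (Fin n)) : Prop :=
  ∀ r1 ∈ R, ∀ r2 ∈ R, ∀ c1 ∈ C, ∀ c2 ∈ C, ¬ JCopy A r1 r2 c1 c2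

/-- Elementary relation at column position `c`. -/
def Step (A : Fin n → Fin n → Bool) (R C : Finset (Fin n)) (c x y : Fin n) : Prop :=
  x < y ∧ x ∈ R ∧ y ∈ R ∧ ∃ z ∈ C, c ≤ z ∧ A x z = false ∧ A y z = false

/-- Reflexive transitive closure of the elementary relation. -/
abbrev Rel (A : Fin n → Fin n → Bool) (R C : Finset (Fin n)) (c : Fin n) :=
  Relation.ReflTransGen (Step A R C c)

variable {A : Fin n → Fin n → Bool} {R C : Finset (Fin n)}

theorem v_lemma (hf : FreeOn A R C) {c x x' s : Fin n}
    (h1 : Step A R C c x s) (h2 : Step A R C c x' s) (hlt : x < x') :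
    Step A R C c x x' := by
  obtain ⟨hxs, hxR, hsR, z1, hz1, hc1, e1, e2⟩ := h1
  obtain ⟨hxs', hxR', _, z2, hz2, hc2, e3, e4⟩ := h2
  by_cases hA : A x' z1 = false
  · exact ⟨hlt, hxR, hxR', z1, hz1, hc1, e1, hA⟩
  by_cases hB : A x z2 = false
  · exact ⟨hlt, hxR, hxR', z2, hz2, hc2, hB, e3⟩
  exfalso
  simp only [Bool.not_eq_false] at hA hB
  rcases lt_trichotomy z1 z2 with h | h | h
  · exact hf x' hxR' s hsR z1 hz1 z2 hz2 ⟨hxs', h, hA, e3, e2, e4⟩
  · subst h
    rw [hA] at e3
    exact absurd e3 (by simp)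
  · exact hf x hxR s hsR z2 hz2 z1 hz1 ⟨hxs, h, hB, e1, e4, e2⟩

theorem Step.lt {c x y : Fin n} (h : Step A R C c x y) : x < y := h.1

theorem Rel.le {c x y : Fin n} (h : Rel A R C c x y) : x ≤ y := by
  induction h with
  | refl => exact le_rfl
  | tail _ h2 ih => exact ih.trans (le_of_lt h2.lt)

/-- The forest property: two elements below a common element are comparable. -/
theorem forest (hf : FreeOn A R C) (c : Fin n) :
    ∀ m : ℕ, ∀ s : Fin n, s.val = m → ∀ x x' : Fin n, Rel A R C c x s → Rel A R C c x' s →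
      Rel A R C c x x' ∨ Rel A R C c x' x := by
  intro m
  induction m using Nat.strong_induction_on with
  | _ m ih =>
    intro s hs x x' h1 h2
    rcases Relation.ReflTransGen.cases_tail h1 with e1 | ⟨u, hu, hus⟩
    · subst e1
      exact Or.inr h2
    rcases Relation.ReflTransGen.cases_tail h2 with e2 | ⟨v, hv, hvs⟩
    · subst e2
      exact Or.inl h1
    have hu_lt : u.val < m := by
      have := hus.lt
      rw [← hs]
      exact this
    have hv_lt : v.val < m := by
      have := hvs.lt
      rw [← hs]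
      exact this
    rcases lt_trichotomy u v with huv | huv | huv
    · have hs1 : Step A R C c u v := v_lemma hf hus hvs huv
      exact ih v.val hv_lt v rfl x x' (hu.tail hs1) hv
    · subst huv
      exact ih u.val hu_lt u rfl x x' hu hv
    · have hs1 : Step A R C c v u := v_lemma hf hvs hus huv
      exact ih u.val hu_lt u rfl x x' hu (hv.tail hs1)

theorem Rel.mono_col {c1 c2 x y : Fin n} (hc : c1 ≤ c2) (h : Rel A R C c2 x y) :
    Rel A R C c1 x y := by
  refine Relation.ReflTransGen.mono (fun a b hab => ?_) x y h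
  obtain ⟨h1, h2, h3, z, hz, hcz, e1, e2⟩ := hab
  exact ⟨h1, h2, h3, z, hz, hc.trans hcz, e1, e2⟩

/-- Down-closure of the seed set `T c` under `Rel` at `c`. -/
def InU (A : Fin n → Fin n → Bool) (R C : Finset (Fin n)) (T : Fin n → Finset (Fin n))
    (c x : Fin n) : Prop :=
  ∃ r ∈ T c, Rel A R C c x r

open Classical in
/-- The output matrix: zero exactly on the down-closures. -/
noncomputable def BMat (A : Fin n → Fin n → Bool) (R C : Finset (Fin n))
    (T : Fin n → Finset (Fin n)) (r c : Fin n) : Bool :=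
  !(decide (InU A R C T c r))

theorem BMat_false_iff {T : Fin n → Finset (Fin n)} {r c : Fin n} :
    BMat A R C T r c = false ↔ InU A R C T c r := by
  simp [BMat]

/-- The matrix `BMat` has no copy at all, provided seeds are cliques. -/
theorem BMat_free (hf : FreeOn A R C) {T : Fin n → Finset (Fin n)}
    (hT : ∀ c, ∀ x ∈ T c, ∀ y ∈ T c, x < y → Step A R C c x y)
    (r1 r2 c1 c2 : Fin n) : ¬ JCopy (BMat A R C T) r1 r2 c1 c2 := by
  rintro ⟨hr, hc, e1, e2, e3, e4⟩
  rw [BMat_false_iff] at e2 e3 e4
  obtain ⟨s1, hs1, h1⟩ := e2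
  obtain ⟨s2, hs2, h2⟩ := e4
  -- `r1` and `r2` are comparable at `c2`
  have hcomp : Rel A R C c2 r1 r2 := by
    have key : ∃ s, Rel A R C c2 r1 s ∧ Rel A R C c2 r2 s := by
      rcases lt_trichotomy s1 s2 with h | h | h
      · exact ⟨s2, h1.tail (hT c2 s1 hs1 s2 hs2 h), h2⟩
      · subst h
        exact ⟨s1, h1, h2⟩
      · exact ⟨s1, h1, h2.tail (hT c2 s2 hs2 s1 hs1 h)⟩
    obtain ⟨s, h3, h4⟩ := key
    rcases forest hf c2 s.val s rfl r1 r2 h3 h4 with h | h
    · exact h
    · exact absurd (Rel.le h) (not_le.mpr hr)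
  have h5 : Rel A R C c1 r1 r2 := Rel.mono_col hc.le hcomp
  obtain ⟨s3, hs3, h6⟩ := e3
  have h7 : InU A R C T c1 r1 := ⟨s3, hs3, h5.trans h6⟩
  have h8 := BMat_false_iff.mpr h7
  rw [h8] at e1
  exact absurd e1 (by simp)

/-- Rows in the closure are in `R` whenever seeds are. -/
theorem InU.mem {T : Fin n → Finset (Fin n)} (hT : ∀ c, T c ⊆ R) {c x : Fin n}
    (h : InU A R C T c x) : x ∈ R := by
  obtain ⟨r, hr, h⟩ := h
  rcases Relation.ReflTransGen.cases_head h with e | ⟨u, hu, _⟩
  · rw [e]; exact hT c hr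
  · exact hu.2.1

/-- Zeros at a representative to the left propagate down the relation. -/
theorem rel_zero (hf : FreeOn A R C) {c y x r : Fin n} (hy : y ∈ C) (hyc : y ≤ c)
    (h : Rel A R C c x r) (h0 : A r y = false) : A x y = false := by
  induction h using Relation.ReflTransGen.head_induction_on with
  | refl => exact h0
  | @head a b h1 _ ih =>
    obtain ⟨hab, haR, hbR, z, hz, hcz, e1, e2⟩ := h1
    rcases eq_or_lt_of_le (hyc.trans hcz) with h | h
    · rw [h]; exact e1
    · by_contra hcon
      simp only [Bool.not_eq_false] at hcon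
      exact hf a haR b hbR y hy z hz ⟨hab, h, hcon, e1, ih, e2⟩

/-- Seeds attached to representatives. -/
def seeds (A : Fin n → Fin n → Bool) (R : Finset (Fin n)) (Gd : Finset (Fin n))
    (y y' : Fin n → Fin n) (c : Fin n) : Finset (Fin n) :=
  if c ∈ Gd then R.filter (fun r => A r (y c) = false ∧ A r (y' c) = false) else ∅

/-- Number of rows where two columns differ. -/
def dist (A : Fin n → Fin n → Bool) (c c' : Fin n) : ℕ :=
  (univ.filter (fun r => A r c ≠ A r c')).card

theorem dist_comm (A : Fin n → Fin n → Bool) (c c' : Fin n) : dist A c c' = dist A c' c := by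
  unfold dist
  congr 1
  ext r
  simp [ne_comm]

/-- The construction: from an exactly free part `R × C` and representatives in `C`
on both sides of each column of `Gd`, get a globally free matrix close to `A`. -/
theorem construct (hf : FreeOn A R C) (Gd : Finset (Fin n)) (y y' : Fin n → Fin n)
    (hy : ∀ c ∈ Gd, y c ∈ C) (hy' : ∀ c ∈ Gd, y' c ∈ C)
    (hyc : ∀ c ∈ Gd, y c ≤ c) (hyc' : ∀ c ∈ Gd, c ≤ y' c) (D : ℕ)
    (hd : ∀ c ∈ Gd, dist A c (y c) ≤ D) (hd' : ∀ c ∈ Gd, dist A c (y' c) ≤ D) :
    ∃ B : Fin n → Fin n → Bool, (∀ r1 r2 c1 c2, ¬ JCopy B r1 r2 c1 c2) ∧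
      (univ.filter (fun q : Fin n × Fin n => A q.1 q.2 ≠ B q.1 q.2)).card ≤
        n * (univ \ R).card + n * (univ \ Gd).card + n * (2 * D) := by
  classical
  set T := seeds A R Gd y y' with hTdef
  have hTR : ∀ c, T c ⊆ R := by
    intro c x hx
    simp only [hTdef, seeds] at hx
    split_ifs at hx with h
    · exact (mem_filter.mp hx).1
    · simp at hx
  have hclique : ∀ c, ∀ x ∈ T c, ∀ z ∈ T c, x < z → Step A R C c x z := by
    intro c x hx w hw hlt
    simp only [hTdef, seeds] at hx hw
    split_ifs at hx hw with h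
    · obtain ⟨h1, h2, h3⟩ := mem_filter.mp hx
      obtain ⟨h4, h5, h6⟩ := mem_filter.mp hw
      exact ⟨hlt, h1, h4, y' c, hy' c h, hyc' c h, h3, h6⟩
    · simp at hx
  refine ⟨BMat A R C T, fun r1 r2 c1 c2 => BMat_free hf hclique r1 r2 c1 c2, ?_⟩
  -- pointwise analysis
  have hsub : univ.filter (fun q : Fin n × Fin n => A q.1 q.2 ≠ BMat A R C T q.1 q.2) ⊆
      ((univ \ R) ×ˢ univ) ∪ (univ ×ˢ (univ \ Gd)) ∪
      (Gd.biUnion (fun c => ((univ.filter (fun r => A r c ≠ A r (y c))) ∪
        (univ.filter (fun r => A r c ≠ A r (y' c)))) ×ˢ {c})) := by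
    rintro ⟨r, c⟩ hq
    have hne : A r c ≠ BMat A R C T r c := (mem_filter.mp hq).2
    simp only [mem_union, mem_product, mem_sdiff, mem_univ, true_and, and_true, mem_biUnion,
      mem_filter, mem_singleton]
    by_cases hr : r ∈ R
    swap
    · exact Or.inl (Or.inl hr)
    by_cases hc : c ∈ Gd
    swap
    · exact Or.inl (Or.inr hc)
    refine Or.inr ⟨c, hc, ?_, rfl⟩
    -- now the real case
    cases hA : A r c with
    | true =>
      -- `B r c = false`, so `r` in the closure, so `A r (y c) = false`
      have hB : BMat A R C T r c = false := by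
        rw [hA] at hne
        cases hb : BMat A R C T r c with
        | true => rw [hb] at hne; exact absurd rfl hne
        | false => rfl
      obtain ⟨s, hs, hrel⟩ := BMat_false_iff.mp hB
      simp only [hTdef, seeds, if_pos hc] at hs
      obtain ⟨_, h2, _⟩ := mem_filter.mp hs
      have := rel_zero hf (hy c hc) (hyc c hc) hrel h2
      left
      rw [this]
      simp
    | false =>
      have hB : BMat A R C T r c = true := by
        rw [hA] at hne
        cases hb : BMat A R C T r c with
        | true => rfl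
        | false => rw [hb] at hne; exact absurd rfl hne
      by_cases h1 : A r (y c) = false
      · by_cases h2 : A r (y' c) = false
        · exfalso
          have hmem : r ∈ T c := by
            simp only [hTdef, seeds, if_pos hc]
            exact mem_filter.mpr ⟨hr, h1, h2⟩
          have : BMat A R C T r c = false :=
            BMat_false_iff.mpr ⟨r, hmem, Relation.ReflTransGen.refl⟩
          rw [hB] at this
          exact absurd this (by simp)
        · right
          simp only [Bool.not_eq_false] at h2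
          rw [h2]; simp
      · left
        simp only [Bool.not_eq_false] at h1
        rw [h1]; simp
  have hcard1 : ((univ \ R) ×ˢ (univ : Finset (Fin n))).card = (univ \ R).card * n := by
    rw [card_product, card_univ, Fintype.card_fin]
  have hcard2 : ((univ : Finset (Fin n)) ×ˢ (univ \ Gd)).card = n * (univ \ Gd).card := by
    rw [card_product, card_univ, Fintype.card_fin]
  have hcard3 : (Gd.biUnion (fun c => ((univ.filter (fun r => A r c ≠ A r (y c))) ∪
        (univ.filter (fun r => A r c ≠ A r (y' c)))) ×ˢ ({c} : Finset (Fin n)))).card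
      ≤ n * (2 * D) := by
    calc _ ≤ Gd.card * (2 * D) := by
          apply card_biUnion_le_card_mul
          intro c hc
          rw [card_product, card_singleton, mul_one]
          calc _ ≤ _ + _ := card_union_le _ _
            _ ≤ D + D := add_le_add (hd c hc) (hd' c hc)
            _ = 2 * D := by ring
      _ ≤ n * (2 * D) := by
          apply Nat.mul_le_mul_right
          calc Gd.card ≤ (univ : Finset (Fin n)).card := card_le_card (subset_univ _)
            _ = n := by simp
  calc _ ≤ _ := card_le_card hsub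
    _ ≤ _ := card_union_le _ _
    _ ≤ _ + _ := add_le_add (card_union_le _ _) le_rfl
    _ ≤ _ := by
        rw [hcard1, hcard2]
        have : (univ \ R).card * n = n * (univ \ R).card := mul_comm _ _
        omega

end Vale.Agent.Lib.P037E
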