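import Vale.Agent.Lib.P037E.Bad

open Finset

namespace Vale.Agent.Lib.P037E

variable {n : ℕ}

theorem arith_small (t : ℕ) :
    6 * (2 ^ (t + 4) * (2 * (10 * t + 63) + 2) + 1) ^ 5 < 2 ^ (10 * t + 63) := by
  have h1 : t < 2 ^ t := Nat.lt_two_pow_self
  have h2 : 2 ^ (t + 4) * (2 * (10 * t + 63) + 2) + 1 ≤ 2 ^ (2 * t + 12) := by
    have e : (2 : ℕ) ^ (2 * t + 12) = 2 ^ (t + 4) * (256 * 2 ^ t) := by
      rw [show 2 * t + 12 = (t + 4) + (t + 8) by ring, pow_add, pow_add 2 t 8]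
      norm_num
      ring
    rw [e]
    have h3 : 1 ≤ 2 ^ (t + 4) := Nat.one_le_two_pow
    have h4 : 2 * (10 * t + 63) + 2 + 1 ≤ 256 * 2 ^ t := by omega
    calc 2 ^ (t + 4) * (2 * (10 * t + 63) + 2) + 1
        ≤ 2 ^ (t + 4) * (2 * (10 * t + 63) + 2) + 2 ^ (t + 4) := by omega
      _ = 2 ^ (t + 4) * (2 * (10 * t + 63) + 2 + 1) := by ring
      _ ≤ 2 ^ (t + 4) * (256 * 2 ^ t) := Nat.mul_le_mul_left _ h4
  have h3 := Nat.pow_le_pow_left h2 5
  have h4 : (2 ^ (2 * t + 12)) ^ 5 = 2 ^ (10 * t + 60) := by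
    rw [← pow_mul]; congr 1; ring
  rw [h4] at h3
  have h5 : (2 : ℕ) ^ (10 * t + 63) = 8 * 2 ^ (10 * t + 60) := by
    rw [show 10 * t + 63 = (10 * t + 60) + 3 by ring, pow_add]
    ring
  rw [h5]
  have h6 : 0 < 2 ^ (10 * t + 60) := by positivity
  omega

/-- The final bound on one side, from the output of `side_bound`. -/
theorem side_final {X XH H0 N m b t a K : ℕ} (hn : 0 < n)
    (hb : b = m + t + 7) (hK : b + t + 5 + 2 * a ≤ K)
    (h1 : XH * n ≤ 2 ^ b * H0) (h2 : X * 2 ^ b ≤ 3 * 2 ^ m * n + XH * 2 ^ b)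
    (h3 : H0 * (n * n) ≤ 4 ^ a * N) (h4 : N * 2 ^ K < n ^ 4) :
    X * 2 ^ (t + 4) ≤ n := by
  have hfour : (4 : ℕ) ^ a = 2 ^ (2 * a) := by
    rw [pow_mul]; norm_num
  have h5 : XH * 2 ^ (t + 5) < n := by
    have h6 : XH * 2 ^ (t + 5) * (n * n * n) < n * (n * n * n) := by
      calc XH * 2 ^ (t + 5) * (n * n * n) = (XH * n) * (n * n) * 2 ^ (t + 5) := by ring
        _ ≤ (2 ^ b * H0) * (n * n) * 2 ^ (t + 5) := by
            apply Nat.mul_le_mul_right
            exact Nat.mul_le_mul_right _ h1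
        _ = 2 ^ b * (H0 * (n * n)) * 2 ^ (t + 5) := by ring
        _ ≤ 2 ^ b * (4 ^ a * N) * 2 ^ (t + 5) := by
            apply Nat.mul_le_mul_right
            exact Nat.mul_le_mul_left _ h3
        _ = N * 2 ^ (b + t + 5 + 2 * a) := by
            rw [hfour, show b + t + 5 + 2 * a = b + (2 * a + (t + 5)) by ring, pow_add, pow_add]
            ring
        _ ≤ N * 2 ^ K := Nat.mul_le_mul_left _ (Nat.pow_le_pow_right (by norm_num) hK)
        _ < n ^ 4 := h4
        _ = n * (n * n * n) := by ring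
    exact Nat.lt_of_mul_lt_mul_right h6
  have h7 : (2 : ℕ) ^ b = 2 ^ m * 2 ^ (t + 7) := by
    rw [hb, show m + t + 7 = m + (t + 7) by ring, pow_add]
  have h8 : X * 2 ^ (t + 7) ≤ 3 * n + XH * 2 ^ (t + 7) := by
    have h9 : 2 ^ m * (X * 2 ^ (t + 7)) ≤ 2 ^ m * (3 * n + XH * 2 ^ (t + 7)) := by
      calc 2 ^ m * (X * 2 ^ (t + 7)) = X * (2 ^ m * 2 ^ (t + 7)) := by ring
        _ = X * 2 ^ b := by rw [h7]
        _ ≤ 3 * 2 ^ m * n + XH * 2 ^ b := h2
        _ = 2 ^ m * (3 * n + XH * 2 ^ (t + 7)) := by rw [h7]; ring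
    exact Nat.le_of_mul_le_mul_left h9 (by positivity)
  have e1 : (2 : ℕ) ^ (t + 7) = 8 * 2 ^ (t + 4) := by
    rw [show t + 7 = (t + 4) + 3 by ring, pow_add]; ring
  have e2 : (2 : ℕ) ^ (t + 5) = 2 * 2 ^ (t + 4) := by
    rw [show t + 5 = (t + 4) + 1 by ring, pow_add]; ring
  rw [e2] at h5
  rw [e1] at h8
  have h10 : XH * (2 * 2 ^ (t + 4)) = 2 * (XH * 2 ^ (t + 4)) := by ring
  have h11 : X * (8 * 2 ^ (t + 4)) = 8 * (X * 2 ^ (t + 4)) := by ring
  have h12 : XH * (8 * 2 ^ (t + 4)) = 8 * (XH * 2 ^ (t + 4)) := by ring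
  rw [h10] at h5
  rw [h11, h12] at h8
  omega

/-- The left bad columns are few. -/
theorem left_final (A : Fin n → Fin n → Bool) {t e z m u a b s K : ℕ} (hn : 0 < n)
    (hfar : ∀ d : ℕ, n < d * 2 ^ e → n + 2 ^ z * (2 ^ m * 2 ^ m * (2 * s)) ≤ 2 ^ z * d)
    (hs : s = n / 2 ^ a)
    (hu : 2 * (2 ^ m * 2 ^ m) < 2 ^ u) (hsmall : 6 * (2 ^ z * u + 1) ^ 5 < 2 ^ m)
    (hnb : 2 ^ b ≤ n) (hb : b = m + t + 7) (hK : b + t + 5 + 2 * a ≤ K)
    (h4 : NJ A * 2 ^ K < n ^ 4) :
    (univ.filter (fun c => (Lc A e c).card * 2 ^ b < n)).card * 2 ^ (t + 4) ≤ n := by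
  classical
  obtain ⟨XH, h1, h2⟩ := side_bound A (fun c => c.val) Fin.val_injective (Lc A e)
    Prod.snd Prod.fst (a := a) (b := b) (m := m) (z := z) (u := u) (s := s) hn
    (by
      intro c c' hlt hc'
      apply hfar
      by_contra hcon
      push Not at hcon
      exact hc' (mem_filter.mpr ⟨mem_univ _, hlt, by rw [dist_comm]; rw [dist_comm] at hcon; exact hcon⟩))
    (by
      intro c c' hlt hc'
      refine ⟨fun h => absurd h (not_lt.mpr (le_of_lt hlt)), fun h => ?_⟩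
      rw [hs]
      apply nonheavy_lt (a := a)
      by_contra hcon
      push Not at hcon
      apply hc'
      refine mem_image.mpr ⟨(c', c), mem_filter.mpr ⟨mem_filter.mpr ⟨mem_univ _, h, hcon⟩, rfl⟩, rfl⟩)
    hu hsmall hnb
  exact side_final hn hb hK h1 h2 (heavy_card A a) h4

/-- The right bad columns are few. -/
theorem right_final (A : Fin n → Fin n → Bool) {t e z m u a b s K : ℕ} (hn : 0 < n)
    (hfar : ∀ d : ℕ, n < d * 2 ^ e → n + 2 ^ z * (2 ^ m * 2 ^ m * (2 * s)) ≤ 2 ^ z * d)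
    (hs : s = n / 2 ^ a)
    (hu : 2 * (2 ^ m * 2 ^ m) < 2 ^ u) (hsmall : 6 * (2 ^ z * u + 1) ^ 5 < 2 ^ m)
    (hnb : 2 ^ b ≤ n) (hb : b = m + t + 7) (hK : b + t + 5 + 2 * a ≤ K)
    (h4 : NJ A * 2 ^ K < n ^ 4) :
    (univ.filter (fun c => (Rc A e c).card * 2 ^ b < n)).card * 2 ^ (t + 4) ≤ n := by
  classical
  have hinj : Function.Injective (fun c : Fin n => n - c.val) := by
    intro c c' h
    have h1 := c.isLt
    have h2 := c'.isLt
    simp only at h
    exact Fin.ext (by omega)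
  obtain ⟨XH, h1, h2⟩ := side_bound A (fun c => n - c.val) hinj (Rc A e)
    Prod.fst Prod.snd (a := a) (b := b) (m := m) (z := z) (u := u) (s := s) hn
    (by
      intro c c' hlt hc'
      apply hfar
      by_contra hcon
      push Not at hcon
      have h3 := c.isLt
      have h4 := c'.isLt
      exact hc' (mem_filter.mpr ⟨mem_univ _, Fin.lt_def.mpr (by omega), hcon⟩))
    (by
      intro c c' hlt hc'
      have h3 := c.isLt
      have h4 := c'.isLt
      refine ⟨fun h => ?_, fun h => ?_⟩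
      · rw [hs]
        apply nonheavy_lt (a := a)
        by_contra hcon
        push Not at hcon
        apply hc'
        refine mem_image.mpr ⟨(c, c'), mem_filter.mpr ⟨mem_filter.mpr ⟨mem_univ _, h, hcon⟩, rfl⟩, rfl⟩
      · have h5 : c'.val < c.val := h
        omega)
    hu hsmall hnb
  exact side_final hn hb hK h1 h2 (heavy_card A a) h4

/-- The main theorem in natural-number form. -/
theorem main_nat (A : Fin n → Fin n → Bool) (t : ℕ) (hn : 0 < n)
    (h : NJ A * 2 ^ (75 * t + 448) < n ^ 4) :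
    ∃ B : Fin n → Fin n → Bool, (∀ r1 r2 c1 c2, ¬ JCopy B r1 r2 c1 c2) ∧
      (univ.filter (fun q : Fin n × Fin n => A q.1 q.2 ≠ B q.1 q.2)).card * 2 ^ t < n * n := by
  classical
  by_cases hN : NJ A = 0
  · refine ⟨A, ?_, ?_⟩
    · intro r1 r2 c1 c2 hc
      have h1 : copyJ A c1 c2 = 0 := by
        have := (Finset.sum_eq_zero_iff.mp hN) (c1, c2) (mem_univ _)
        exact this
      have h2 := Finset.card_eq_zero.mp h1
      have h3 : (r1, r2) ∈ (univ : Finset (Fin n × Fin n)).filter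
          (fun p => JCopy A p.1 p.2 c1 c2) := mem_filter.mpr ⟨mem_univ _, hc⟩
      rw [h2] at h3
      simp at h3
    · simp
      omega
  -- parameters
  obtain ⟨e, he⟩ : ∃ e, e = t + 3 := ⟨_, rfl⟩
  obtain ⟨z, hz⟩ : ∃ z, z = t + 4 := ⟨_, rfl⟩
  obtain ⟨m, hm⟩ : ∃ m, m = 10 * t + 63 := ⟨_, rfl⟩
  obtain ⟨u, hu⟩ : ∃ u, u = 2 * m + 2 := ⟨_, rfl⟩
  obtain ⟨a, ha⟩ : ∃ a, a = 21 * t + 131 := ⟨_, rfl⟩
  obtain ⟨b, hb⟩ : ∃ b, b = 11 * t + 70 := ⟨_, rfl⟩
  obtain ⟨u2, hu2⟩ : ∃ u2, u2 = t + 6 := ⟨_, rfl⟩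
  obtain ⟨a2, ha2⟩ : ∃ a2, a2 = 25 * t + 149 := ⟨_, rfl⟩
  obtain ⟨K, hK⟩ : ∃ K, K = 75 * t + 448 := ⟨_, rfl⟩
  rw [← hK] at h
  obtain ⟨s1, hs1⟩ : ∃ s, s = n / 2 ^ a := ⟨_, rfl⟩
  obtain ⟨s2, hs2⟩ : ∃ s, s = n / 2 ^ a2 := ⟨_, rfl⟩
  -- `n` is large
  have hnb : 2 ^ b ≤ n := by
    by_contra hcon
    push Not at hcon
    have h1 : n ^ 4 ≤ (2 ^ b) ^ 4 := Nat.pow_le_pow_left hcon.le 4
    have h2 : (2 ^ b) ^ 4 ≤ 2 ^ K := by
      rw [← pow_mul]
      exact Nat.pow_le_pow_right (by norm_num) (by omega)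
    have h3 : 2 ^ K ≤ NJ A * 2 ^ K := Nat.le_mul_of_pos_left _ (Nat.pos_of_ne_zero hN)
    omega
  have hsmall : 6 * (2 ^ z * u + 1) ^ 5 < 2 ^ m := by
    rw [hz, hu, hm]
    exact arith_small t
  have hu' : 2 * (2 ^ m * 2 ^ m) < 2 ^ u := by
    have : (2 : ℕ) ^ u = 4 * (2 ^ m * 2 ^ m) := by
      rw [hu, show 2 * m + 2 = m + m + 2 by ring, pow_add, pow_add]
      ring
    rw [this]
    have : 0 < 2 ^ m * 2 ^ m := by positivity
    omega
  have hfar : ∀ d : ℕ, n < d * 2 ^ e → n + 2 ^ z * (2 ^ m * 2 ^ m * (2 * s1)) ≤ 2 ^ z * d := by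
    intro d hd
    have e1 : 2 ^ z * (2 ^ m * 2 ^ m * (2 * s1)) = 2 ^ a * s1 := by
      rw [ha, show 21 * t + 131 = z + (m + (m + 1)) by omega, pow_add, pow_add, pow_add]
      ring
    have e2 : 2 ^ a * s1 ≤ n := by
      rw [hs1]
      exact Nat.mul_div_le _ _
    have e3 : (2 : ℕ) ^ z = 2 * 2 ^ e := by
      rw [hz, he, show t + 4 = (t + 3) + 1 by ring, pow_add]
      ring
    have e4 : 2 ^ z * d = 2 * (d * 2 ^ e) := by rw [e3]; ring
    omega
  have hL := left_final A (t := t) hn hfar hs1 hu' hsmall hnb (by omega) (by omega) h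
  have hR := right_final A (t := t) hn hfar hs1 hu' hsmall hnb (by omega) (by omega) h
  set XL := univ.filter (fun c => (Lc A e c).card * 2 ^ b < n) with hXL
  set XR := univ.filter (fun c => (Rc A e c).card * 2 ^ b < n) with hXR
  -- sampling
  set Good := univ \ (XL ∪ XR) with hGood
  set G := Good ×ˢ (univ : Finset Bool) with hG
  let F : Fin n × Bool → Finset (Fin n) := fun g => if g.2 then Rc A e g.1 else Lc A e g.1
  have hF : ∀ g ∈ G, n ≤ 2 ^ b * (F g).card := by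
    rintro ⟨c, bb⟩ hg
    have hc : c ∈ Good := (mem_product.mp hg).1
    have hc2 := (mem_sdiff.mp hc).2
    have hcL : c ∉ XL := fun h => hc2 (mem_union_left _ h)
    have hcR : c ∉ XR := fun h => hc2 (mem_union_right _ h)
    cases bb with
    | true =>
      by_contra hcon
      push Not at hcon
      apply hcR
      refine mem_filter.mpr ⟨mem_univ _, ?_⟩
      simp only [F, if_true] at hcon
      rw [mul_comm]
      exact hcon
    | false =>
      by_contra hcon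
      push Not at hcon
      apply hcL
      refine mem_filter.mpr ⟨mem_univ _, ?_⟩
      simp only [F, Bool.false_eq_true, if_false] at hcon
      rw [mul_comm]
      exact hcon
  have hH2 := heavy_card A a2
  have hu2le : u2 ≤ 2 ^ (t + 3) := by
    have h1 : t < 2 ^ t := Nat.lt_two_pow_self
    have h2 : (2 : ℕ) ^ (t + 3) = 8 * 2 ^ t := by
      rw [pow_add]; ring
    omega
  have hprod : 2 ^ b * u2 ≤ 2 ^ (b + t + 3) := by
    calc 2 ^ b * u2 ≤ 2 ^ b * 2 ^ (t + 3) := Nat.mul_le_mul_left _ hu2le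
      _ = 2 ^ (b + t + 3) := by rw [← pow_add]; congr 1
  have hsq : (2 ^ b * u2) * (2 ^ b * u2) ≤ 2 ^ (2 * b + 2 * t + 6) := by
    calc _ ≤ 2 ^ (b + t + 3) * 2 ^ (b + t + 3) := Nat.mul_le_mul hprod hprod
      _ = _ := by rw [← pow_add]; congr 1; ring
  have hHeavy : 2 * ((2 ^ b * u2) * (2 ^ b * u2)) * (heavySet A a2).card ≤ n * n := by
    have h1 : (2 * ((2 ^ b * u2) * (2 ^ b * u2)) * (heavySet A a2).card) * (n * n) <
        (n * n) * (n * n) := by
      calc (2 * ((2 ^ b * u2) * (2 ^ b * u2)) * (heavySet A a2).card) * (n * n)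
          = 2 * ((2 ^ b * u2) * (2 ^ b * u2)) * ((heavySet A a2).card * (n * n)) := by ring
        _ ≤ 2 * ((2 ^ b * u2) * (2 ^ b * u2)) * (4 ^ a2 * NJ A) :=
            Nat.mul_le_mul_left _ hH2
        _ ≤ 2 * 2 ^ (2 * b + 2 * t + 6) * (4 ^ a2 * NJ A) := by
            apply Nat.mul_le_mul_right
            exact Nat.mul_le_mul_left _ hsq
        _ = NJ A * (2 ^ (1 + (2 * b + 2 * t + 6) + 2 * a2)) := by
            have : (4 : ℕ) ^ a2 = 2 ^ (2 * a2) := by
              rw [pow_mul]; norm_num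
            rw [this, pow_add, pow_add]
            ring
        _ ≤ NJ A * 2 ^ K := by
            apply Nat.mul_le_mul_left
            exact Nat.pow_le_pow_right (by norm_num) (by omega)
        _ < n ^ 4 := h
        _ = (n * n) * (n * n) := by ring
    exact le_of_lt (Nat.lt_of_mul_lt_mul_right h1)
  obtain ⟨τ, hτ1, hτ2⟩ := sample G F b u2 hn hF (heavySet A a2)
    (fun p hp => ne_of_lt (mem_filter.mp hp).2.1) hHeavy
  set Missed := G.filter (fun g => ∀ i, τ i ∉ F g) with hMissed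
  have hMcard : Missed.card * 2 ^ (t + 4) ≤ n := by
    have h1 : G.card ≤ 2 * n := by
      rw [hG, card_product]
      have h2 : Good.card ≤ n := by
        calc Good.card ≤ (univ : Finset (Fin n)).card := card_le_card (subset_univ _)
          _ = n := by simp
      simp only [card_univ, Fintype.card_bool]
      omega
    have h2 : 4 * (Missed.card * 2 ^ (t + 4)) ≤ 4 * n := by
      calc 4 * (Missed.card * 2 ^ (t + 4)) = 2 ^ u2 * Missed.card := by
            rw [hu2, show t + 6 = (t + 4) + 2 by ring, pow_add]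
            ring
        _ ≤ 2 * G.card := hτ2
        _ ≤ 4 * n := by omega
    omega
  set C := univ.image τ with hC
  have hCcard : C.card ≤ 2 ^ b * u2 := by
    calc C.card ≤ (univ : Finset (Fin (2 ^ b * u2))).card := card_image_le
      _ = 2 ^ b * u2 := by simp
  have hCheavy : ∀ c1 ∈ C, ∀ c2 ∈ C, c1 < c2 → copyJ A c1 c2 < (s2 + 1) * (s2 + 1) := by
    intro c1 hc1 c2 hc2 hlt
    obtain ⟨i, _, rfl⟩ := mem_image.mp hc1
    obtain ⟨j, _, rfl⟩ := mem_image.mp hc2
    rw [hs2]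
    apply nonheavy_lt (a := a2)
    by_contra hcon
    push Not at hcon
    exact hτ1 i j (mem_filter.mpr ⟨mem_univ _, hlt, hcon⟩)
  obtain ⟨Del, hDel, hfree⟩ := delete_rows A C s2 hCheavy
  have hDelcard : Del.card * 2 ^ (t + 2) ≤ n := by
    calc Del.card * 2 ^ (t + 2) ≤ (C.card * C.card * (2 * s2)) * 2 ^ (t + 2) :=
          Nat.mul_le_mul_right _ hDel
      _ ≤ (2 ^ (2 * b + 2 * t + 6) * (2 * s2)) * 2 ^ (t + 2) := by
          apply Nat.mul_le_mul_right
          apply Nat.mul_le_mul_right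
          exact (Nat.mul_le_mul hCcard hCcard).trans hsq
      _ = 2 ^ a2 * s2 := by
          have e9 : (2 : ℕ) ^ a2 = 2 ^ (2 * b + 2 * t + 6) * 2 * 2 ^ (t + 2) := by
            rw [ha2, show 25 * t + 149 = (2 * b + 2 * t + 6) + 1 + (t + 2) by omega, pow_add,
              pow_add, pow_one]
          rw [e9]
          ring
      _ ≤ n := by
          rw [hs2]
          exact Nat.mul_div_le _ _
  -- representatives
  set Gd := Good.filter (fun c => (∃ i, τ i ∈ Lc A e c) ∧ (∃ i, τ i ∈ Rc A e c)) with hGd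
  obtain ⟨D, hD⟩ : ∃ D, D = n / 2 ^ e := ⟨_, rfl⟩
  have hleD : ∀ d : ℕ, d * 2 ^ e ≤ n → d ≤ D := by
    intro d hd
    rw [hD]
    exact (Nat.le_div_iff_mul_le (by positivity)).mpr hd
  have hexy : ∀ c, ∃ w, c ∈ Gd → w ∈ C ∧ w ≤ c ∧ dist A c w ≤ D := by
    intro c
    by_cases hc : c ∈ Gd
    · obtain ⟨i, hi⟩ := (mem_filter.mp hc).2.1
      obtain ⟨h1, h2⟩ := (mem_filter.mp hi).2
      exact ⟨τ i, fun _ => ⟨mem_image_of_mem _ (mem_univ _), h1.le, hleD _ h2⟩⟩
    · exact ⟨c, fun h => absurd h hc⟩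
  have hexy' : ∀ c, ∃ w, c ∈ Gd → w ∈ C ∧ c ≤ w ∧ dist A c w ≤ D := by
    intro c
    by_cases hc : c ∈ Gd
    · obtain ⟨i, hi⟩ := (mem_filter.mp hc).2.2
      obtain ⟨h1, h2⟩ := (mem_filter.mp hi).2
      exact ⟨τ i, fun _ => ⟨mem_image_of_mem _ (mem_univ _), h1.le, hleD _ h2⟩⟩
    · exact ⟨c, fun h => absurd h hc⟩
  choose y hy using hexy
  choose y' hy' using hexy'
  obtain ⟨B, hB1, hB2⟩ := construct hfree Gd y y' (fun c hc => (hy c hc).1)
    (fun c hc => (hy' c hc).1) (fun c hc => (hy c hc).2.1) (fun c hc => (hy' c hc).2.1) D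
    (fun c hc => (hy c hc).2.2) (fun c hc => (hy' c hc).2.2)
  refine ⟨B, hB1, ?_⟩
  have hR0 : (univ \ (univ \ Del)).card = Del.card := by
    congr 1
    ext x
    simp
  rw [hR0] at hB2
  have hGdc : (univ \ Gd).card ≤ XL.card + XR.card + Missed.card := by
    have hsub : univ \ Gd ⊆ XL ∪ XR ∪ Missed.image Prod.fst := by
      intro c hc
      have hc' : c ∉ Gd := (mem_sdiff.mp hc).2
      by_cases hL' : c ∈ XL
      · exact mem_union_left _ (mem_union_left _ hL')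
      by_cases hR' : c ∈ XR
      · exact mem_union_left _ (mem_union_right _ hR')
      apply mem_union_right
      have hgood : c ∈ Good := by
        refine mem_sdiff.mpr ⟨mem_univ _, ?_⟩
        intro h
        rcases mem_union.mp h with h | h
        · exact hL' h
        · exact hR' h
      by_cases h1 : ∃ i, τ i ∈ Lc A e c
      · have h2 : ¬ ∃ i, τ i ∈ Rc A e c := by
          intro h2
          exact hc' (mem_filter.mpr ⟨hgood, h1, h2⟩)
        push Not at h2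
        refine mem_image.mpr ⟨(c, true), mem_filter.mpr ⟨mem_product.mpr ⟨hgood, mem_univ _⟩, ?_⟩, rfl⟩
        simpa [F] using h2
      · push Not at h1
        refine mem_image.mpr ⟨(c, false), mem_filter.mpr ⟨mem_product.mpr ⟨hgood, mem_univ _⟩, ?_⟩, rfl⟩
        simpa [F] using h1
    calc _ ≤ _ := card_le_card hsub
      _ ≤ _ := card_union_le _ _
      _ ≤ _ := add_le_add (card_union_le _ _) card_image_le
  have hDe : D * 2 ^ e ≤ n := by
    rw [hD]
    exact Nat.div_mul_le_self _ _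
  -- final arithmetic
  obtain ⟨P, hP⟩ : ∃ P, P = 2 ^ t := ⟨_, rfl⟩
  have hPpos : 0 < P := by rw [hP]; positivity
  have e1 : (2 : ℕ) ^ (t + 4) = 16 * P := by
    rw [hP, pow_add]; ring
  have e2 : (2 : ℕ) ^ (t + 2) = 4 * P := by
    rw [hP, pow_add]; ring
  have e3 : (2 : ℕ) ^ e = 8 * P := by
    rw [he, hP, pow_add]; ring
  rw [← hP]
  rw [e1] at hL hR hMcard
  rw [e2] at hDelcard
  rw [e3] at hDe
  have hnn : 0 < n * n := by positivity
  set x := (univ.filter (fun q : Fin n × Fin n => A q.1 q.2 ≠ B q.1 q.2)).card with hx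
  set w := (univ \ Gd).card with hw
  have h16 : 16 * (x * P) ≤ 11 * (n * n) := by
    have h1 : x ≤ n * (Del.card + w + 2 * D) := by
      calc x ≤ n * Del.card + n * w + n * (2 * D) := hB2
        _ = _ := by ring
    have h2 : (Del.card + w + 2 * D) * (16 * P) ≤ 11 * n := by
      have a1 : Del.card * (16 * P) = 4 * (Del.card * (4 * P)) := by ring
      have a2 : (XL.card + XR.card + Missed.card) * (16 * P) =
          XL.card * (16 * P) + XR.card * (16 * P) + Missed.card * (16 * P) := by ring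
      have a3 : w * (16 * P) ≤ (XL.card + XR.card + Missed.card) * (16 * P) :=
        Nat.mul_le_mul_right _ hGdc
      have a4 : 2 * D * (16 * P) = 4 * (D * (8 * P)) := by ring
      have a5 : (Del.card + w + 2 * D) * (16 * P) =
          Del.card * (16 * P) + w * (16 * P) + 2 * D * (16 * P) := by ring
      omega
    calc 16 * (x * P) = x * (16 * P) := by ring
      _ ≤ (n * (Del.card + w + 2 * D)) * (16 * P) := Nat.mul_le_mul_right _ h1
      _ = n * ((Del.card + w + 2 * D) * (16 * P)) := by ring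
      _ ≤ n * (11 * n) := Nat.mul_le_mul_left _ h2
      _ = 11 * (n * n) := by ring
  omega

end Vale.Agent.Lib.P037E
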