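import Mathlib

open Finset

namespace Vale.Agent.Lib.P037E

theorem pow_aux1 (K m : ℕ) : K ^ m * (K + m) ≤ (K + 1) ^ m * K := by
  induction m with
  | zero => simp
  | succ m ih =>
    have h1 : K * (K + (m + 1)) ≤ (K + 1) * (K + m) := by nlinarith
    calc K ^ (m + 1) * (K + (m + 1)) = K ^ m * (K * (K + (m + 1))) := by ring
      _ ≤ K ^ m * ((K + 1) * (K + m)) := Nat.mul_le_mul_left _ h1
      _ = (K + 1) * (K ^ m * (K + m)) := by ring
      _ ≤ (K + 1) * ((K + 1) ^ m * K) := Nat.mul_le_mul_left _ ih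
      _ = (K + 1) ^ (m + 1) * K := by ring

theorem pow_aux2 (K : ℕ) : K ^ (K + 1) * 2 ≤ (K + 1) ^ (K + 1) := by
  rcases Nat.eq_zero_or_pos K with h | h
  · subst h; simp
  · have h1 := pow_aux1 K (K + 1)
    have h2 : K * (K ^ (K + 1) * 2) ≤ K * (K + 1) ^ (K + 1) := by
      calc K * (K ^ (K + 1) * 2) = K ^ (K + 1) * (2 * K) := by ring
        _ ≤ K ^ (K + 1) * (K + (K + 1)) := Nat.mul_le_mul_left _ (by omega)
        _ ≤ (K + 1) ^ (K + 1) * K := h1
        _ = K * (K + 1) ^ (K + 1) := by ring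
    exact Nat.le_of_mul_le_mul_left h2 h

theorem pow_miss {n f M u : ℕ} (hM : 0 < M) (hf : n ≤ M * f) :
    (n - f) ^ (M * u) * 2 ^ u ≤ n ^ (M * u) := by
  obtain ⟨K, rfl⟩ : ∃ K, M = K + 1 := ⟨M - 1, by omega⟩
  set M := K + 1 with hMdef
  have h1 : (n - f) * M ≤ n * K := by
    rcases le_total f n with h | h
    · obtain ⟨g, rfl⟩ : ∃ g, n = f + g := ⟨n - f, by omega⟩
      have : f + g - f = g := by omega
      rw [this]
      rw [hMdef] at hf ⊢
      nlinarith
    · have : n - f = 0 := by omega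
      rw [this]
      simp
  have h2 : ((n - f) * M) ^ (M * u) ≤ (n * K) ^ (M * u) := Nat.pow_le_pow_left h1 _
  have h3 : (K ^ M * 2) ^ u ≤ (M ^ M) ^ u := Nat.pow_le_pow_left (pow_aux2 K) _
  have h4 : K ^ (M * u) * 2 ^ u ≤ M ^ (M * u) := by
    calc K ^ (M * u) * 2 ^ u = (K ^ M * 2) ^ u := by rw [mul_pow, pow_mul]
      _ ≤ (M ^ M) ^ u := h3
      _ = M ^ (M * u) := by rw [pow_mul]
  have hpos : 0 < M ^ (M * u) := pow_pos hM _
  apply Nat.le_of_mul_le_mul_right _ hpos
  calc (n - f) ^ (M * u) * 2 ^ u * M ^ (M * u)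
      = ((n - f) * M) ^ (M * u) * 2 ^ u := by rw [mul_pow]; ring
    _ ≤ (n * K) ^ (M * u) * 2 ^ u := Nat.mul_le_mul_right _ h2
    _ = n ^ (M * u) * (K ^ (M * u) * 2 ^ u) := by rw [mul_pow]; ring
    _ ≤ n ^ (M * u) * M ^ (M * u) := Nat.mul_le_mul_left _ h4

variable {n : ℕ}

theorem card_miss (s : ℕ) (F : Finset (Fin n)) :
    (univ.filter (fun τ : Fin s → Fin n => ∀ i, τ i ∉ F)).card = (n - F.card) ^ s := by
  have : univ.filter (fun τ : Fin s → Fin n => ∀ i, τ i ∉ F) =
      Fintype.piFinset (fun _ => univ \ F) := by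
    ext τ
    simp [Fintype.mem_piFinset]
  rw [this, Fintype.card_piFinset]
  simp [card_sdiff]

theorem heavy_count {s : ℕ} (Heavy : Finset (Fin n × Fin n)) (i j : Fin s) (hij : i ≠ j) :
    (univ.filter (fun τ : Fin s → Fin n => (τ i, τ j) ∈ Heavy)).card * (n * n) ≤
      Heavy.card * n ^ s := by
  classical
  have hT : (univ : Finset (Fin s → Fin n)).card = n ^ s := by
    simp
  have h1 : ((univ.filter (fun τ : Fin s → Fin n => (τ i, τ j) ∈ Heavy)) ×ˢ
      ((univ : Finset (Fin n)) ×ˢ (univ : Finset (Fin n)))).card ≤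
      (Heavy ×ˢ (univ : Finset (Fin s → Fin n))).card := by
    apply card_le_card_of_injOn
      (fun p => ((p.1 i, p.1 j), Function.update (Function.update p.1 i p.2.1) j p.2.2))
    · intro p hp
      have hp' := (mem_filter.mp (mem_product.mp (mem_coe.mp hp)).1).2
      exact mem_coe.mpr (mem_product.mpr ⟨hp', mem_univ _⟩)
    · intro p _ q _ hpq
      simp only [Prod.mk.injEq] at hpq
      obtain ⟨⟨h1, h2⟩, h3⟩ := hpq
      have hj : p.2.2 = q.2.2 := by
        have := congrFun h3 j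
        simpa using this
      have hi : p.2.1 = q.2.1 := by
        have := congrFun h3 i
        simpa [Function.update_of_ne hij] using this
      have hτ : p.1 = q.1 := by
        funext k
        by_cases hk : k = i
        · subst hk; exact h1
        by_cases hk' : k = j
        · subst hk'; exact h2
        have := congrFun h3 k
        simpa [Function.update_of_ne hk, Function.update_of_ne hk'] using this
      exact Prod.ext hτ (Prod.ext hi hj)
  rw [card_product, card_product, card_product, hT] at h1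
  simpa using h1

/-- Random-sampling lemma in counting form. -/
theorem sample {ι : Type*} (G : Finset ι) (F : ι → Finset (Fin n)) (z u : ℕ) (hn : 0 < n)
    (hF : ∀ g ∈ G, n ≤ 2 ^ z * (F g).card)
    (Heavy : Finset (Fin n × Fin n)) (hHd : ∀ p ∈ Heavy, p.1 ≠ p.2)
    (hH : 2 * ((2 ^ z * u) * (2 ^ z * u)) * Heavy.card ≤ n * n) :
    ∃ τ : Fin (2 ^ z * u) → Fin n, (∀ i j, (τ i, τ j) ∉ Heavy) ∧
      2 ^ u * (G.filter (fun g => ∀ i, τ i ∉ F g)).card ≤ 2 * G.card := by
  classical
  set s := 2 ^ z * u with hs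
  have hT : (univ : Finset (Fin s → Fin n)).card = n ^ s := by
    simp
  have hpos : 0 < n ^ s := pow_pos hn _
  set Bad := univ.filter (fun τ : Fin s → Fin n => ∃ i j, (τ i, τ j) ∈ Heavy) with hBad
  have hBad1 : 2 * Bad.card ≤ n ^ s := by
    have hsub : Bad ⊆ ((univ : Finset (Fin s × Fin s)).filter (fun q => q.1 ≠ q.2)).biUnion
        (fun q => univ.filter (fun τ : Fin s → Fin n => (τ q.1, τ q.2) ∈ Heavy)) := by
      intro τ hτ
      obtain ⟨i, j, hij⟩ := (mem_filter.mp hτ).2
      have hne : i ≠ j := by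
        intro e
        subst e
        exact hHd _ hij rfl
      refine mem_biUnion.mpr ⟨(i, j), ?_, mem_filter.mpr ⟨mem_univ _, hij⟩⟩
      simp [hne]
    have h1 : Bad.card * (n * n) ≤ (s * s) * (Heavy.card * n ^ s) := by
      calc Bad.card * (n * n)
          ≤ (∑ q ∈ (univ : Finset (Fin s × Fin s)).filter (fun q => q.1 ≠ q.2),
              (univ.filter (fun τ : Fin s → Fin n => (τ q.1, τ q.2) ∈ Heavy)).card) * (n * n) :=
            Nat.mul_le_mul_right _ ((card_le_card hsub).trans card_biUnion_le)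
        _ = ∑ q ∈ (univ : Finset (Fin s × Fin s)).filter (fun q => q.1 ≠ q.2),
              ((univ.filter (fun τ : Fin s → Fin n => (τ q.1, τ q.2) ∈ Heavy)).card * (n * n)) := by
            rw [sum_mul]
        _ ≤ ∑ _q ∈ (univ : Finset (Fin s × Fin s)).filter (fun q => q.1 ≠ q.2),
              (Heavy.card * n ^ s) := by
            apply sum_le_sum
            intro q hq
            exact heavy_count Heavy q.1 q.2 (mem_filter.mp hq).2
        _ = ((univ : Finset (Fin s × Fin s)).filter (fun q => q.1 ≠ q.2)).card *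
              (Heavy.card * n ^ s) := by
            rw [sum_const, smul_eq_mul]
        _ ≤ (s * s) * (Heavy.card * n ^ s) := by
            apply Nat.mul_le_mul_right
            calc _ ≤ (univ : Finset (Fin s × Fin s)).card := card_le_card (filter_subset _ _)
              _ = s * s := by simp
    have h2 : 2 * Bad.card * (n * n) ≤ n ^ s * (n * n) := by
      calc 2 * Bad.card * (n * n) = 2 * (Bad.card * (n * n)) := by ring
        _ ≤ 2 * ((s * s) * (Heavy.card * n ^ s)) := Nat.mul_le_mul_left _ h1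
        _ = (2 * (s * s) * Heavy.card) * n ^ s := by ring
        _ ≤ (n * n) * n ^ s := Nat.mul_le_mul_right _ hH
        _ = n ^ s * (n * n) := by ring
    exact Nat.le_of_mul_le_mul_right h2 (by positivity)
  set T₀ := univ \ Bad with hT₀
  have hT₀card : n ^ s ≤ 2 * T₀.card := by
    have h1 : T₀.card + Bad.card = n ^ s := by
      rw [hT₀, ← hT]
      exact card_sdiff_add_card_eq_card (subset_univ _)
    omega
  have hT₀pos : 0 < T₀.card := by
    by_contra hc
    have : T₀.card = 0 := by omega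
    omega
  -- double counting of misses
  have hmiss : ∀ g ∈ G, (univ.filter (fun τ : Fin s → Fin n => ∀ i, τ i ∉ F g)).card * 2 ^ u ≤
      n ^ s := by
    intro g hg
    rw [card_miss]
    exact pow_miss (by positivity) (hF g hg)
  have hdouble : ∑ τ ∈ T₀, (G.filter (fun g => ∀ i, τ i ∉ F g)).card ≤
      ∑ g ∈ G, (univ.filter (fun τ : Fin s → Fin n => ∀ i, τ i ∉ F g)).card := by
    calc ∑ τ ∈ T₀, (G.filter (fun g => ∀ i, τ i ∉ F g)).card
        ≤ ∑ τ ∈ (univ : Finset (Fin s → Fin n)), (G.filter (fun g => ∀ i, τ i ∉ F g)).card :=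
          sum_le_sum_of_subset (subset_univ _)
      _ = ∑ g ∈ G, (univ.filter (fun τ : Fin s → Fin n => ∀ i, τ i ∉ F g)).card :=
          sum_card_bipartiteAbove_eq_sum_card_bipartiteBelow _
  have hsum : (∑ τ ∈ T₀, (G.filter (fun g => ∀ i, τ i ∉ F g)).card) * 2 ^ u ≤ G.card * n ^ s := by
    calc _ ≤ (∑ g ∈ G, (univ.filter (fun τ : Fin s → Fin n => ∀ i, τ i ∉ F g)).card) * 2 ^ u :=
          Nat.mul_le_mul_right _ hdouble
      _ = ∑ g ∈ G, ((univ.filter (fun τ : Fin s → Fin n => ∀ i, τ i ∉ F g)).card * 2 ^ u) := by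
          rw [sum_mul]
      _ ≤ ∑ _g ∈ G, n ^ s := sum_le_sum hmiss
      _ = G.card * n ^ s := by rw [sum_const, smul_eq_mul]
  -- averaging
  by_contra hcon
  push Not at hcon
  have hall : ∀ τ ∈ T₀, 2 * G.card + 1 ≤ 2 ^ u * (G.filter (fun g => ∀ i, τ i ∉ F g)).card := by
    intro τ hτ
    have hgood : ∀ i j, (τ i, τ j) ∉ Heavy := by
      intro i j hij
      exact (mem_sdiff.mp hτ).2 (mem_filter.mpr ⟨mem_univ _, i, j, hij⟩)
    exact hcon τ hgood
  have h1 : T₀.card * (2 * G.card + 1) ≤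
      ∑ τ ∈ T₀, 2 ^ u * (G.filter (fun g => ∀ i, τ i ∉ F g)).card := by
    rw [← smul_eq_mul]
    exact card_nsmul_le_sum _ _ _ hall
  have h2 : ∑ τ ∈ T₀, 2 ^ u * (G.filter (fun g => ∀ i, τ i ∉ F g)).card =
      (∑ τ ∈ T₀, (G.filter (fun g => ∀ i, τ i ∉ F g)).card) * 2 ^ u := by
    rw [sum_mul]
    exact sum_congr rfl (fun _ _ => mul_comm _ _)
  have h3 : T₀.card * (2 * G.card + 1) ≤ G.card * n ^ s := by
    rw [h2] at h1
    exact h1.trans hsum
  have h4 : G.card * n ^ s ≤ G.card * (2 * T₀.card) := Nat.mul_le_mul_left _ hT₀card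
  nlinarith

end Vale.Agent.Lib.P037E
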