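import Vale.Agent.Lib.P037E.Delete
import Vale.Agent.Lib.P037E.Sample

open Finset

namespace Vale.Agent.Lib.P037E

variable {n : ℕ}

/-- Three columns with singleton traces on three increasing row pairs cannot coexist. -/
theorem three_cols {A : Fin n → Fin n → Bool} {W S : Finset (Fin n)} (hf : FreeOn A W S)
    {a1 a2 a3 a4 a5 a6 p q w : Fin n}
    (h1 : a1 ∈ W) (h2 : a2 ∈ W) (h3 : a3 ∈ W) (h4 : a4 ∈ W) (h5 : a5 ∈ W) (h6 : a6 ∈ W)
    (h12 : a1 < a2) (h34 : a3 < a4) (h56 : a5 < a6)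
    (hp : p ∈ S) (hq : q ∈ S) (hw : w ∈ S)
    (p1 : A a1 p = true) (p2 : A a2 p = false) (p5 : A a5 p = false) (p6 : A a6 p = false)
    (q1 : A a1 q = false) (q2 : A a2 q = false) (q3 : A a3 q = true) (q4 : A a4 q = false)
    (w3 : A a3 w = false) (w4 : A a4 w = false) (w5 : A a5 w = true) (w6 : A a6 w = false) :
    False := by
  have hpq : ¬ p < q := fun h => hf a1 h1 a2 h2 p hp q hq ⟨h12, h, p1, q1, p2, q2⟩
  have hqw : ¬ q < w := fun h => hf a3 h3 a4 h4 q hq w hw ⟨h34, h, q3, w3, q4, w4⟩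
  have hwp : ¬ w < p := fun h => hf a5 h5 a6 h6 w hw p hp ⟨h56, h, w5, p5, w6, p6⟩
  have : p = q := by
    apply le_antisymm
    · exact (not_lt.mp hwp).trans (not_lt.mp hqw)
    · exact not_lt.mp hpq
  subst this
  rw [p1] at q1
  exact absurd q1 (by simp)

/-- VC bound via Sauer–Shelah: a separated set of columns on a free row set is small. -/
theorem vc_bound {A : Fin n → Fin n → Bool} {W S : Finset (Fin n)} (hf : FreeOn A W S)
    (hsep : ∀ c ∈ S, ∀ c' ∈ S, c ≠ c' → ∃ r ∈ W, A r c ≠ A r c') :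
    S.card ≤ 6 * (W.card + 1) ^ 5 := by
  classical
  let tr : Fin n → Finset (↥W) := fun c => univ.filter (fun r => A r.1 c = true)
  have htr : Set.InjOn tr S := by
    intro c hc c' hc' h
    by_contra hne
    obtain ⟨r, hr, hrne⟩ := hsep c hc c' hc' hne
    have h1 : (⟨r, hr⟩ : ↥W) ∈ tr c ↔ (⟨r, hr⟩ : ↥W) ∈ tr c' := by rw [h]
    simp only [tr, mem_filter, mem_univ, true_and] at h1
    apply hrne
    cases h2 : A r c <;> cases h3 : A r c' <;> simp_all
  set 𝒜 := S.image tr with h𝒜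
  have hcard : 𝒜.card = S.card := card_image_of_injOn htr
  have hvc : 𝒜.vcDim ≤ 5 := by
    unfold Finset.vcDim
    apply Finset.sup_le
    intro t ht
    by_contra hcon
    push Not at hcon
    have hsh : 𝒜.Shatters t := mem_shatterer.mp ht
    obtain ⟨t', ht', hcard'⟩ := Finset.exists_subset_card_eq (s := t) (n := 6) (by omega)
    have hsh' : 𝒜.Shatters t' := hsh.mono_right ht'
    let f := t'.orderEmbOfFin hcard'
    have hfmem : ∀ i, f i ∈ t' := fun i => Finset.orderEmbOfFin_mem _ _ _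
    have hflt : ∀ i j : Fin 6, i < j → (f i).1 < (f j).1 := fun i j hij => f.strictMono hij
    -- extraction of a column with a singleton trace
    have hsing : ∀ i : Fin 6, ∃ c ∈ S, ∀ j : Fin 6, A (f j).1 c = true ↔ j = i := by
      intro i
      have hsub : ({f i} : Finset ↥W) ⊆ t' := singleton_subset_iff.mpr (hfmem i)
      obtain ⟨v, hv, hv2⟩ := hsh' hsub
      obtain ⟨c, hc, rfl⟩ := mem_image.mp hv
      refine ⟨c, hc, ?_⟩
      intro j
      have h1 : f j ∈ t' ∩ tr c ↔ f j ∈ ({f i} : Finset ↥W) := by rw [hv2]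
      simp only [mem_inter, tr, mem_filter, mem_univ, true_and, mem_singleton] at h1
      constructor
      · intro h
        exact f.injective (h1.mp ⟨hfmem j, h⟩)
      · intro h
        exact (h1.mpr (by rw [h])).2
    obtain ⟨p, hp, hpf⟩ := hsing 0
    obtain ⟨q, hq, hqf⟩ := hsing 2
    obtain ⟨w, hw, hwf⟩ := hsing 4
    have hval : ∀ (c : Fin n) (i j : Fin 6), (∀ j : Fin 6, A (f j).1 c = true ↔ j = i) → j ≠ i →
        A (f j).1 c = false := by
      intro c i j h hne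
      cases hv : A (f j).1 c with
      | false => rfl
      | true => exact absurd ((h j).mp hv) hne
    exact three_cols (a1 := (f 0).1) (a2 := (f 1).1) (a3 := (f 2).1) (a4 := (f 3).1)
      (a5 := (f 4).1) (a6 := (f 5).1) hf (f 0).2 (f 1).2 (f 2).2 (f 3).2 (f 4).2 (f 5).2
      (hflt _ _ (by decide)) (hflt _ _ (by decide)) (hflt _ _ (by decide)) hp hq hw
      ((hpf 0).mpr rfl) (hval p 0 1 hpf (by decide)) (hval p 0 4 hpf (by decide))
      (hval p 0 5 hpf (by decide))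
      (hval q 2 0 hqf (by decide)) (hval q 2 1 hqf (by decide)) ((hqf 2).mpr rfl)
      (hval q 2 3 hqf (by decide))
      (hval w 4 2 hwf (by decide)) (hval w 4 3 hwf (by decide)) ((hwf 4).mpr rfl)
      (hval w 4 5 hwf (by decide))
  have hsauer : 𝒜.card ≤ ∑ k ∈ Iic 𝒜.vcDim, (Fintype.card ↥W).choose k :=
    (card_le_card_shatterer 𝒜).trans card_shatterer_le_sum_vcDim
  have hWcard : Fintype.card ↥W = W.card := Fintype.card_coe W
  rw [hWcard] at hsauer
  calc S.card = 𝒜.card := hcard.symm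
    _ ≤ ∑ k ∈ Iic 𝒜.vcDim, W.card.choose k := hsauer
    _ ≤ ∑ k ∈ Iic 5, W.card.choose k :=
        sum_le_sum_of_subset (Finset.Iic_subset_Iic.mpr hvc)
    _ ≤ ∑ _k ∈ Iic 5, (W.card + 1) ^ 5 := by
        apply sum_le_sum
        intro k hk
        have hk5 : k ≤ 5 := mem_Iic.mp hk
        calc W.card.choose k ≤ W.card ^ k := Nat.choose_le_pow _ _
          _ ≤ (W.card + 1) ^ k := Nat.pow_le_pow_left (by omega) _
          _ ≤ (W.card + 1) ^ 5 := Nat.pow_le_pow_right (by omega) hk5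
    _ = 6 * (W.card + 1) ^ 5 := by simp

/-- The packing lemma: a set of pairwise far columns with few copies on each pair is small. -/
theorem packing (A : Fin n → Fin n → Bool) (S : Finset (Fin n)) {s z u : ℕ} (hn : 0 < n)
    (hN : ∀ c1 ∈ S, ∀ c2 ∈ S, c1 < c2 → copyJ A c1 c2 < (s + 1) * (s + 1))
    (hfar : ∀ c ∈ S, ∀ c' ∈ S, c ≠ c' →
      n + 2 ^ z * (S.card * S.card * (2 * s)) ≤ 2 ^ z * dist A c c')
    (hu : 2 * (S.card * S.card) < 2 ^ u) :
    S.card ≤ 6 * (2 ^ z * u + 1) ^ 5 := by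
  classical
  obtain ⟨Del, hDel, hfree⟩ := delete_rows A S s hN
  set G := S.offDiag with hG
  set F : Fin n × Fin n → Finset (Fin n) :=
    fun q => (univ.filter (fun r => A r q.1 ≠ A r q.2)) \ Del with hFdef
  have hF : ∀ g ∈ G, n ≤ 2 ^ z * (F g).card := by
    intro g hg
    obtain ⟨h1, h2, h3⟩ := mem_offDiag.mp hg
    have h4 := hfar _ h1 _ h2 h3
    have h5 : dist A g.1 g.2 ≤ (F g).card + Del.card := by
      unfold dist
      have : (univ.filter (fun r => A r g.1 ≠ A r g.2)) ⊆ F g ∪ Del := by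
        intro r hr
        by_cases hd : r ∈ Del
        · exact mem_union_right _ hd
        · exact mem_union_left _ (mem_sdiff.mpr ⟨hr, hd⟩)
      exact (card_le_card this).trans (card_union_le _ _)
    have h6 : 2 ^ z * dist A g.1 g.2 ≤ 2 ^ z * (F g).card + 2 ^ z * Del.card := by
      rw [← mul_add]
      exact Nat.mul_le_mul_left _ h5
    have h7 : 2 ^ z * Del.card ≤ 2 ^ z * (S.card * S.card * (2 * s)) :=
      Nat.mul_le_mul_left _ hDel
    omega
  obtain ⟨τ, -, hτ⟩ := sample G F z u hn hF ∅ (by simp) (by simp)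
  have hGcard : G.card ≤ S.card * S.card := by
    rw [hG, offDiag_card]
    exact Nat.sub_le _ _
  have hmiss : (G.filter (fun g => ∀ i, τ i ∉ F g)).card = 0 := by
    by_contra hne
    have h1 : 1 ≤ (G.filter (fun g => ∀ i, τ i ∉ F g)).card := by omega
    have h2 : 2 ^ u * 1 ≤ 2 ^ u * (G.filter (fun g => ∀ i, τ i ∉ F g)).card :=
      Nat.mul_le_mul_left _ h1
    omega
  set W := (univ.image τ) \ Del with hW
  have hWcard : W.card ≤ 2 ^ z * u := by
    calc W.card ≤ (univ.image τ).card := card_le_card sdiff_subset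
      _ ≤ (univ : Finset (Fin (2 ^ z * u))).card := card_image_le
      _ = 2 ^ z * u := by simp
  have hWfree : FreeOn A W S := by
    intro r1 hr1 r2 hr2 c1 hc1 c2 hc2
    apply hfree r1 ?_ r2 ?_ c1 hc1 c2 hc2
    · exact mem_sdiff.mpr ⟨mem_univ _, (mem_sdiff.mp hr1).2⟩
    · exact mem_sdiff.mpr ⟨mem_univ _, (mem_sdiff.mp hr2).2⟩
  have hsep : ∀ c ∈ S, ∀ c' ∈ S, c ≠ c' → ∃ r ∈ W, A r c ≠ A r c' := by
    intro c hc c' hc' hne
    have hg : (c, c') ∈ G := mem_offDiag.mpr ⟨hc, hc', hne⟩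
    have h1 : (c, c') ∉ G.filter (fun g => ∀ i, τ i ∉ F g) := by
      rw [card_eq_zero.mp hmiss]
      simp
    have h2 : ¬ ∀ i, τ i ∉ F (c, c') := fun h => h1 (mem_filter.mpr ⟨hg, h⟩)
    push Not at h2
    obtain ⟨i, hi⟩ := h2
    obtain ⟨h3, h4⟩ := mem_sdiff.mp hi
    refine ⟨τ i, mem_sdiff.mpr ⟨mem_image_of_mem _ (mem_univ _), h4⟩, (mem_filter.mp h3).2⟩
  calc S.card ≤ 6 * (W.card + 1) ^ 5 := vc_bound hWfree hsep
    _ ≤ 6 * (2 ^ z * u + 1) ^ 5 := by
        apply Nat.mul_le_mul_left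
        exact Nat.pow_le_pow_left (by omega) _

end Vale.Agent.Lib.P037E
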