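import Vale.Agent.Lib.P037E.Defs
import Vale.Agent.Lib.P037E.Main

open Finset

namespace Vale.Agent.Lib.P037E

/-- Reverse the order of the rows. -/
def rowFlip {m : ℕ} (A : Fin m → Fin m → Bool) : Fin m → Fin m → Bool :=
  fun r c => A (Fin.rev r) c

/-- Reverse the order of the columns. -/
def colFlip {m : ℕ} (A : Fin m → Fin m → Bool) : Fin m → Fin m → Bool :=
  fun r c => A r (Fin.rev c)

/-- Exchange zeros and ones. -/
def compl {m : ℕ} (A : Fin m → Fin m → Bool) : Fin m → Fin m → Bool :=
  fun r c => !(A r c)

/-- Transpose. -/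
def transp {m : ℕ} (A : Fin m → Fin m → Bool) : Fin m → Fin m → Bool :=
  fun r c => A c r

theorem rowFlip_rowFlip {m : ℕ} (A : Fin m → Fin m → Bool) : rowFlip (rowFlip A) = A := by
  funext r c; simp [rowFlip]

theorem colFlip_colFlip {m : ℕ} (A : Fin m → Fin m → Bool) : colFlip (colFlip A) = A := by
  funext r c; simp [colFlip]

theorem compl_compl {m : ℕ} (A : Fin m → Fin m → Bool) : compl (compl A) = A := by
  funext r c; simp [compl]

theorem transp_transp {m : ℕ} (A : Fin m → Fin m → Bool) : transp (transp A) = A := rfl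

variable {k n : ℕ}

theorem revConj_strictMono {f : Fin k → Fin n} (hf : StrictMono f) :
    StrictMono (fun i => Fin.rev (f (Fin.rev i))) := by
  intro i j hij
  apply Fin.rev_lt_rev.mpr
  apply hf
  exact Fin.rev_lt_rev.mpr hij

theorem countCopies_rowFlip_le (H : Fin k → Fin k → Bool) (A : Fin n → Fin n → Bool) :
    countCopies H A ≤ countCopies (rowFlip H) (rowFlip A) := by
  classical
  unfold countCopies copies
  apply card_le_card_of_injOn (fun p => ((fun i => Fin.rev (p.1 (Fin.rev i))), p.2))
  · intro p hp
    obtain ⟨h1, h2, h3⟩ := (mem_filter.mp (mem_coe.mp hp)).2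
    refine mem_coe.mpr (mem_filter.mpr ⟨mem_univ _, revConj_strictMono h1, h2, ?_⟩)
    intro i j
    simp [rowFlip, h3]
  · intro p _ q _ h
    have h1 := congrArg Prod.fst h
    have h2 := congrArg Prod.snd h
    refine Prod.ext ?_ h2
    funext i
    have := congrFun h1 (Fin.rev i)
    simpa using this

theorem countCopies_rowFlip (H : Fin k → Fin k → Bool) (A : Fin n → Fin n → Bool) :
    countCopies (rowFlip H) (rowFlip A) = countCopies H A := by
  apply le_antisymm
  · have := countCopies_rowFlip_le (rowFlip H) (rowFlip A)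
    rwa [rowFlip_rowFlip, rowFlip_rowFlip] at this
  · exact countCopies_rowFlip_le H A

theorem countCopies_colFlip_le (H : Fin k → Fin k → Bool) (A : Fin n → Fin n → Bool) :
    countCopies H A ≤ countCopies (colFlip H) (colFlip A) := by
  classical
  unfold countCopies copies
  apply card_le_card_of_injOn (fun p => (p.1, (fun i => Fin.rev (p.2 (Fin.rev i)))))
  · intro p hp
    obtain ⟨h1, h2, h3⟩ := (mem_filter.mp (mem_coe.mp hp)).2
    refine mem_coe.mpr (mem_filter.mpr ⟨mem_univ _, h1, revConj_strictMono h2, ?_⟩)
    intro i j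
    simp [colFlip, h3]
  · intro p _ q _ h
    have h1 := congrArg Prod.fst h
    have h2 := congrArg Prod.snd h
    refine Prod.ext h1 ?_
    funext i
    have := congrFun h2 (Fin.rev i)
    simpa using this

theorem countCopies_colFlip (H : Fin k → Fin k → Bool) (A : Fin n → Fin n → Bool) :
    countCopies (colFlip H) (colFlip A) = countCopies H A := by
  apply le_antisymm
  · have := countCopies_colFlip_le (colFlip H) (colFlip A)
    rwa [colFlip_colFlip, colFlip_colFlip] at this
  · exact countCopies_colFlip_le H A

theorem countCopies_compl_le (H : Fin k → Fin k → Bool) (A : Fin n → Fin n → Bool) :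
    countCopies H A ≤ countCopies (compl H) (compl A) := by
  classical
  unfold countCopies copies
  apply card_le_card_of_injOn (fun p => p)
  · intro p hp
    obtain ⟨h1, h2, h3⟩ := (mem_filter.mp (mem_coe.mp hp)).2
    refine mem_coe.mpr (mem_filter.mpr ⟨mem_univ _, h1, h2, ?_⟩)
    intro i j
    simp [compl, h3]
  · intro p _ q _ h
    exact h

theorem countCopies_compl (H : Fin k → Fin k → Bool) (A : Fin n → Fin n → Bool) :
    countCopies (compl H) (compl A) = countCopies H A := by
  apply le_antisymm
  · have := countCopies_compl_le (compl H) (compl A)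
    rwa [compl_compl, compl_compl] at this
  · exact countCopies_compl_le H A

theorem countCopies_transp_le (H : Fin k → Fin k → Bool) (A : Fin n → Fin n → Bool) :
    countCopies H A ≤ countCopies (transp H) (transp A) := by
  classical
  unfold countCopies copies
  apply card_le_card_of_injOn (fun p => (p.2, p.1))
  · intro p hp
    obtain ⟨h1, h2, h3⟩ := (mem_filter.mp (mem_coe.mp hp)).2
    refine mem_coe.mpr (mem_filter.mpr ⟨mem_univ _, h2, h1, ?_⟩)
    intro i j
    simp [transp, h3]
  · intro p _ q _ h
    have h1 := congrArg Prod.fst h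
    have h2 := congrArg Prod.snd h
    exact Prod.ext h2 h1

theorem countCopies_transp (H : Fin k → Fin k → Bool) (A : Fin n → Fin n → Bool) :
    countCopies (transp H) (transp A) = countCopies H A := by
  apply le_antisymm
  · have := countCopies_transp_le (transp H) (transp A)
    rwa [transp_transp, transp_transp] at this
  · exact countCopies_transp_le H A

theorem diffCount_rowFlip_le (A B : Fin n → Fin n → Bool) :
    diffCount A B ≤ diffCount (rowFlip A) (rowFlip B) := by
  classical
  unfold diffCount
  apply card_le_card_of_injOn (fun q => (Fin.rev q.1, q.2))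
  · intro q hq
    have := (mem_filter.mp (mem_coe.mp hq)).2
    exact mem_coe.mpr (mem_filter.mpr ⟨mem_univ _, by simpa [rowFlip] using this⟩)
  · intro p _ q _ h
    have h1 := congrArg Prod.fst h
    have h2 := congrArg Prod.snd h
    exact Prod.ext (Fin.rev_injective h1) h2

theorem diffCount_rowFlip (A B : Fin n → Fin n → Bool) :
    diffCount (rowFlip A) (rowFlip B) = diffCount A B := by
  apply le_antisymm
  · have := diffCount_rowFlip_le (rowFlip A) (rowFlip B)
    rwa [rowFlip_rowFlip, rowFlip_rowFlip] at this
  · exact diffCount_rowFlip_le A B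

theorem diffCount_colFlip_le (A B : Fin n → Fin n → Bool) :
    diffCount A B ≤ diffCount (colFlip A) (colFlip B) := by
  classical
  unfold diffCount
  apply card_le_card_of_injOn (fun q => (q.1, Fin.rev q.2))
  · intro q hq
    have := (mem_filter.mp (mem_coe.mp hq)).2
    exact mem_coe.mpr (mem_filter.mpr ⟨mem_univ _, by simpa [colFlip] using this⟩)
  · intro p _ q _ h
    have h1 := congrArg Prod.fst h
    have h2 := congrArg Prod.snd h
    exact Prod.ext h1 (Fin.rev_injective h2)

theorem diffCount_colFlip (A B : Fin n → Fin n → Bool) :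
    diffCount (colFlip A) (colFlip B) = diffCount A B := by
  apply le_antisymm
  · have := diffCount_colFlip_le (colFlip A) (colFlip B)
    rwa [colFlip_colFlip, colFlip_colFlip] at this
  · exact diffCount_colFlip_le A B

theorem diffCount_compl (A B : Fin n → Fin n → Bool) :
    diffCount (compl A) (compl B) = diffCount A B := by
  classical
  unfold diffCount
  congr 1
  ext q
  simp [compl]

theorem diffCount_transp_le (A B : Fin n → Fin n → Bool) :
    diffCount A B ≤ diffCount (transp A) (transp B) := by
  classical
  unfold diffCount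
  apply card_le_card_of_injOn (fun q => (q.2, q.1))
  · intro q hq
    have := (mem_filter.mp (mem_coe.mp hq)).2
    exact mem_coe.mpr (mem_filter.mpr ⟨mem_univ _, by simpa [transp] using this⟩)
  · intro p _ q _ h
    have h1 := congrArg Prod.fst h
    have h2 := congrArg Prod.snd h
    exact Prod.ext h2 h1

theorem diffCount_transp (A B : Fin n → Fin n → Bool) :
    diffCount (transp A) (transp B) = diffCount A B := by
  apply le_antisymm
  · have := diffCount_transp_le (transp A) (transp B)
    rwa [transp_transp, transp_transp] at this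
  · exact diffCount_transp_le A B

/-- The removal property of a `2 × 2` pattern, natural-number form with the exponent function
`K t = a * t + b`. -/
def Good (a b : ℕ) (H : Fin 2 → Fin 2 → Bool) : Prop :=
  ∀ (n : ℕ) (_ : 0 < n) (t : ℕ) (A : Fin n → Fin n → Bool),
    countCopies H A * 2 ^ (a * t + b) < n ^ 4 →
      ∃ B : Fin n → Fin n → Bool, countCopies H B = 0 ∧ diffCount A B * 2 ^ t < n * n

theorem Good.rowFlip {a b : ℕ} {H : Fin 2 → Fin 2 → Bool} (h : Good a b H) :
    Good a b (rowFlip H) := by
  intro n hn t A hA
  obtain ⟨B, h1, h2⟩ := h n hn t (Vale.Agent.Lib.P037E.rowFlip A) (by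
    have e := countCopies_rowFlip H (Vale.Agent.Lib.P037E.rowFlip A)
    rw [rowFlip_rowFlip] at e
    rw [← e]
    exact hA)
  refine ⟨Vale.Agent.Lib.P037E.rowFlip B, ?_, ?_⟩
  · rw [countCopies_rowFlip]; exact h1
  · have := diffCount_rowFlip (Vale.Agent.Lib.P037E.rowFlip A) B
    rw [rowFlip_rowFlip] at this
    rw [this]
    exact h2

theorem Good.colFlip {a b : ℕ} {H : Fin 2 → Fin 2 → Bool} (h : Good a b H) :
    Good a b (colFlip H) := by
  intro n hn t A hA
  obtain ⟨B, h1, h2⟩ := h n hn t (Vale.Agent.Lib.P037E.colFlip A) (by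
    have e := countCopies_colFlip H (Vale.Agent.Lib.P037E.colFlip A)
    rw [colFlip_colFlip] at e
    rw [← e]
    exact hA)
  refine ⟨Vale.Agent.Lib.P037E.colFlip B, ?_, ?_⟩
  · rw [countCopies_colFlip]; exact h1
  · have := diffCount_colFlip (Vale.Agent.Lib.P037E.colFlip A) B
    rw [colFlip_colFlip] at this
    rw [this]
    exact h2

theorem Good.compl {a b : ℕ} {H : Fin 2 → Fin 2 → Bool} (h : Good a b H) :
    Good a b (compl H) := by
  intro n hn t A hA
  obtain ⟨B, h1, h2⟩ := h n hn t (Vale.Agent.Lib.P037E.compl A) (by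
    have e := countCopies_compl H (Vale.Agent.Lib.P037E.compl A)
    rw [compl_compl] at e
    rw [← e]
    exact hA)
  refine ⟨Vale.Agent.Lib.P037E.compl B, ?_, ?_⟩
  · rw [countCopies_compl]; exact h1
  · have := diffCount_compl (Vale.Agent.Lib.P037E.compl A) B
    rw [compl_compl] at this
    rw [this]
    exact h2

theorem Good.transp {a b : ℕ} {H : Fin 2 → Fin 2 → Bool} (h : Good a b H) :
    Good a b (transp H) := by
  intro n hn t A hA
  obtain ⟨B, h1, h2⟩ := h n hn t (Vale.Agent.Lib.P037E.transp A) (by
    have e := countCopies_transp H (Vale.Agent.Lib.P037E.transp A)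
    rw [transp_transp] at e
    rw [← e]
    exact hA)
  refine ⟨Vale.Agent.Lib.P037E.transp B, ?_, ?_⟩
  · rw [countCopies_transp]; exact h1
  · have := diffCount_transp (Vale.Agent.Lib.P037E.transp A) B
    rw [transp_transp] at this
    rw [this]
    exact h2

/-- The pattern `[[1,0],[0,0]]`. -/
def Jpat : Fin 2 → Fin 2 → Bool := ![![true, false], ![false, false]]

theorem NJ_le_countCopies {n : ℕ} (A : Fin n → Fin n → Bool) :
    NJ A ≤ countCopies Jpat A := by
  classical
  have h1 : NJ A = ((univ : Finset ((Fin n × Fin n) × (Fin n × Fin n))).filter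
      (fun q => JCopy A q.1.1 q.1.2 q.2.1 q.2.2)).card := by
    unfold NJ copyJ
    symm
    rw [Finset.card_filter, Fintype.sum_prod_type_right]
    apply Finset.sum_congr rfl
    intro q _
    rw [Finset.card_filter]
  rw [h1]
  unfold countCopies copies
  apply Finset.card_le_card_of_injOn
    (fun q => ((![q.1.1, q.1.2] : Fin 2 → Fin n), (![q.2.1, q.2.2] : Fin 2 → Fin n)))
  · intro q hq
    have hq' := (Finset.mem_filter.mp (Finset.mem_coe.mp hq)).2
    obtain ⟨h1, h2, e1, e2, e3, e4⟩ := hq'
    apply Finset.mem_coe.mpr
    simp only [mem_filter, mem_univ, true_and]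
    refine ⟨?_, ?_, ?_⟩
    · intro i j hij
      fin_cases i <;> fin_cases j <;> simp_all
    · intro i j hij
      fin_cases i <;> fin_cases j <;> simp_all
    · intro i j
      fin_cases i <;> fin_cases j <;> simp_all [Jpat]
  · intro q _ q' _ h
    have h1 := congrArg (fun x => x.1 0) h
    have h2 := congrArg (fun x => x.1 1) h
    have h3 := congrArg (fun x => x.2 0) h
    have h4 := congrArg (fun x => x.2 1) h
    simp only [Matrix.cons_val_zero, Matrix.cons_val_one] at h1 h2 h3 h4
    exact Prod.ext (Prod.ext h1 h2) (Prod.ext h3 h4)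

end Vale.Agent.Lib.P037E
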